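import Vale.Agent.P335.AvgBasic
import Vale.Agent.P335.Spectral

/-!
# P328: the abstract pair-block argument (A ≤ A²) and its spectral consequence
-/

namespace Vale.Agent.P328.HB

open Finset Vale.Agent.P335

set_option linter.unusedSectionVars false

variable {Ω : Type*} [Fintype Ω] {V : Type*} [Fintype V] [DecidableEq V] {K : Type*}

/-- `1 - avg` -/
noncomputable def Qk (k : Ω → K) (F : Ω → ℝ) : Ω → ℝ := F - avg k F

/-- sum of `1 - avg (key b)` over the two-element subsets `b` of `T` -/
noncomputable def Asum (key : Finset V → Ω → K) (T : Finset V) (F : Ω → ℝ) : Ω → ℝ :=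
  ∑ b ∈ T.powersetCard 2, Qk (key b) F

theorem ip_sum_left_abs {ι : Type*} (s : Finset ι) (f : ι → Ω → ℝ) (g : Ω → ℝ) :
    ip (∑ i ∈ s, f i) g = ∑ i ∈ s, ip (f i) g := by
  unfold ip
  rw [Finset.sum_comm]
  refine Finset.sum_congr rfl (fun ω _ => ?_)
  rw [Finset.sum_apply, Finset.sum_mul]

theorem ip_sum_right_abs {ι : Type*} (s : Finset ι) (f : ι → Ω → ℝ) (g : Ω → ℝ) :
    ip g (∑ i ∈ s, f i) = ∑ i ∈ s, ip g (f i) := by
  unfold ip
  rw [Finset.sum_comm]
  refine Finset.sum_congr rfl (fun ω _ => ?_)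
  rw [Finset.sum_apply, Finset.mul_sum]

theorem Qk_symm (k : Ω → K) (F G : Ω → ℝ) : ip (Qk k F) G = ip F (Qk k G) := by
  have h := avg_symm k F G
  unfold Qk
  unfold ip at h ⊢
  simp only [Pi.sub_apply, sub_mul, mul_sub, Finset.sum_sub_distrib]
  rw [h]

theorem ip_self_Qk (k : Ω → K) (F : Ω → ℝ) : ip F (Qk k F) = ip (Qk k F) (Qk k F) := by
  exact ip_self_sub_avg k F

theorem ip_self_Asum (key : Finset V → Ω → K) (T : Finset V) (F : Ω → ℝ) :
    ip F (Asum key T F) = ∑ b ∈ T.powersetCard 2, ip (Qk (key b) F) (Qk (key b) F) := by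
  unfold Asum
  rw [ip_sum_right_abs]
  exact Finset.sum_congr rfl (fun b _ => ip_self_Qk (key b) F)

theorem Asum_symm (key : Finset V → Ω → K) (T : Finset V) (F G : Ω → ℝ) :
    ip (Asum key T F) G = ip F (Asum key T G) := by
  unfold Asum
  rw [ip_sum_left_abs, ip_sum_right_abs]
  exact Finset.sum_congr rfl (fun b _ => Qk_symm (key b) F G)

theorem pairs_trichotomy_abs {b b' : Finset V} (hb : b.card = 2) (hb' : b'.card = 2) :
    (b' = b ∧ (b ∩ b').card ≠ 1 ∧ ¬ Disjoint b b') ∨
    (b' ≠ b ∧ (b ∩ b').card = 1 ∧ ¬ Disjoint b b') ∨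
    (b' ≠ b ∧ (b ∩ b').card ≠ 1 ∧ Disjoint b b') := by
  by_cases h : b' = b
  · left
    subst h
    refine ⟨rfl, ?_, ?_⟩
    · rw [Finset.inter_self, hb']; norm_num
    · intro hd
      rw [Finset.disjoint_self_iff_empty] at hd
      rw [hd] at hb'
      simp at hb'
  · right
    have hle : (b ∩ b').card ≤ 2 := by
      calc (b ∩ b').card ≤ b.card := Finset.card_le_card Finset.inter_subset_left
        _ = 2 := hb
    have hne2 : (b ∩ b').card ≠ 2 := by
      intro h2
      have h1 : b ∩ b' = b :=
        Finset.eq_of_subset_of_card_le Finset.inter_subset_left (by rw [h2, hb])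
      have h3 : b ∩ b' = b' :=
        Finset.eq_of_subset_of_card_le Finset.inter_subset_right (by rw [h2, hb'])
      exact h (h3.symm.trans h1)
    by_cases h0 : (b ∩ b').card = 0
    · right
      refine ⟨h, by omega, ?_⟩
      rw [Finset.disjoint_iff_inter_eq_empty]
      exact Finset.card_eq_zero.mp h0
    · left
      refine ⟨h, by omega, ?_⟩
      intro hd
      rw [Finset.disjoint_iff_inter_eq_empty] at hd
      rw [hd] at h0
      simp at h0

/-- two two-element sets are equal, meet in one point, or are disjoint -/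
theorem sum_pairs_split' (h : Finset V → Finset V → ℝ) :
    ∑ b ∈ (univ : Finset V).powersetCard 2, ∑ b' ∈ (univ : Finset V).powersetCard 2, h b b' =
      ∑ b ∈ (univ : Finset V).powersetCard 2, h b b
        + ∑ b ∈ (univ : Finset V).powersetCard 2,
            ∑ b' ∈ ((univ : Finset V).powersetCard 2).filter (fun b' => (b ∩ b').card = 1), h b b'
        + ∑ b ∈ (univ : Finset V).powersetCard 2,
            ∑ b' ∈ ((univ : Finset V).powersetCard 2).filter (fun b' => Disjoint b b'), h b b' := by
  rw [← Finset.sum_add_distrib, ← Finset.sum_add_distrib]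
  refine Finset.sum_congr rfl fun b hb => ?_
  have hbc : b.card = 2 := (Finset.mem_powersetCard.mp hb).2
  have h1 : h b b = ∑ b' ∈ (univ : Finset V).powersetCard 2, if b' = b then h b b' else 0 := by
    rw [Finset.sum_ite_eq' ((univ : Finset V).powersetCard 2) b (fun b' => h b b')]
    simp [hb]
  rw [h1, Finset.sum_filter, Finset.sum_filter, ← Finset.sum_add_distrib,
    ← Finset.sum_add_distrib]
  refine Finset.sum_congr rfl fun b' hb' => ?_
  have hbc' : b'.card = 2 := (Finset.mem_powersetCard.mp hb').2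
  rcases pairs_trichotomy_abs hbc hbc' with ⟨a1, a2, a3⟩ | ⟨a1, a2, a3⟩ | ⟨a1, a2, a3⟩
  · rw [if_pos a1, if_neg a2, if_neg a3]; ring
  · rw [if_neg a1, if_pos a2, if_neg a3]; ring
  · rw [if_neg a1, if_neg a2, if_pos a3]; ring

/-- ordered pairs of two-element sets meeting in one point, grouped by their union -/
theorem sum_overlap_eq (f : Finset V → Finset V → ℝ) :
    ∑ b ∈ (univ : Finset V).powersetCard 2,
        ∑ b' ∈ ((univ : Finset V).powersetCard 2).filter (fun b' => (b ∩ b').card = 1), f b b'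
      = ∑ T ∈ (univ : Finset V).powersetCard 3,
          ∑ b ∈ T.powersetCard 2, ∑ b' ∈ (T.powersetCard 2).erase b, f b b' := by
  set P : Finset (Finset V × Finset V) :=
    (((univ : Finset V).powersetCard 2) ×ˢ ((univ : Finset V).powersetCard 2)).filter
      (fun p => (p.1 ∩ p.2).card = 1) with hP
  have h1 : ∑ b ∈ (univ : Finset V).powersetCard 2,
        ∑ b' ∈ ((univ : Finset V).powersetCard 2).filter (fun b' => (b ∩ b').card = 1), f b b'
      = ∑ p ∈ P, f p.1 p.2 := by
    rw [hP, Finset.sum_filter, Finset.sum_product]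
    refine Finset.sum_congr rfl fun b _ => ?_
    rw [Finset.sum_filter]
  have hmaps : ∀ p ∈ P, p.1 ∪ p.2 ∈ powersetCard 3 (univ : Finset V) := by
    intro p hp
    rw [hP, Finset.mem_filter, Finset.mem_product] at hp
    obtain ⟨⟨hp1, hp2⟩, hc⟩ := hp
    have c1 : p.1.card = 2 := (Finset.mem_powersetCard.mp hp1).2
    have c2 : p.2.card = 2 := (Finset.mem_powersetCard.mp hp2).2
    rw [Finset.mem_powersetCard]
    refine ⟨Finset.subset_univ _, ?_⟩
    have := Finset.card_union_add_card_inter p.1 p.2
    omega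
  have h2 : ∑ p ∈ P, f p.1 p.2
      = ∑ T ∈ powersetCard 3 (univ : Finset V), ∑ p ∈ P.filter (fun p => p.1 ∪ p.2 = T),
          f p.1 p.2 := (Finset.sum_fiberwise_of_maps_to hmaps _).symm
  have h3 : ∀ T ∈ powersetCard 3 (univ : Finset V),
      ∑ p ∈ P.filter (fun p => p.1 ∪ p.2 = T), f p.1 p.2
        = ∑ b ∈ powersetCard 2 T, ∑ b' ∈ (powersetCard 2 T).erase b, f b b' := by
    intro T hT
    have hTc : T.card = 3 := (Finset.mem_powersetCard.mp hT).2
    have hset : P.filter (fun p => p.1 ∪ p.2 = T)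
        = ((powersetCard 2 T) ×ˢ (powersetCard 2 T)).filter (fun p => p.2 ≠ p.1) := by
      ext p
      simp only [hP, Finset.mem_filter, Finset.mem_product, Finset.mem_powersetCard,
        Finset.subset_univ, true_and]
      constructor
      · rintro ⟨⟨⟨c1, c2⟩, hc⟩, hu⟩
        refine ⟨⟨⟨?_, c1⟩, ⟨?_, c2⟩⟩, ?_⟩
        · rw [← hu]; exact Finset.subset_union_left
        · rw [← hu]; exact Finset.subset_union_right
        · intro h
          rw [h, Finset.inter_self, c1] at hc
          omega
      · rintro ⟨⟨⟨s1, c1⟩, ⟨s2, c2⟩⟩, hne⟩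
        have hsub : p.1 ∪ p.2 ⊆ T := Finset.union_subset s1 s2
        have hle : (p.1 ∪ p.2).card ≤ 3 := hTc ▸ Finset.card_le_card hsub
        have hadd := Finset.card_union_add_card_inter p.1 p.2
        have hne2 : (p.1 ∩ p.2).card ≠ 2 := by
          intro h2
          have e1 : p.1 ∩ p.2 = p.1 :=
            Finset.eq_of_subset_of_card_le Finset.inter_subset_left (by rw [h2, c1])
          have e2 : p.1 ∩ p.2 = p.2 :=
            Finset.eq_of_subset_of_card_le Finset.inter_subset_right (by rw [h2, c2])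
          exact hne (e2.symm.trans e1)
        have hle2 : (p.1 ∩ p.2).card ≤ 2 := c1 ▸ Finset.card_le_card Finset.inter_subset_left
        have hc : (p.1 ∩ p.2).card = 1 := by omega
        refine ⟨⟨⟨c1, c2⟩, hc⟩, ?_⟩
        exact Finset.eq_of_subset_of_card_le hsub (by rw [hTc]; omega)
    rw [hset, Finset.sum_filter, Finset.sum_product]
    refine Finset.sum_congr rfl fun b _ => ?_
    rw [← Finset.sum_filter, Finset.filter_ne']
  rw [h1, h2]
  exact Finset.sum_congr rfl h3

/-- The abstract pair-block inequality.  If the operators of disjoint pairs have nonnegative cross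
terms and every triple satisfies `A_T ≤ A_T²`, then `A ≤ A²`. -/
theorem caputo_abs (key : Finset V → Ω → K)
    (hdis : ∀ b b' : Finset V, b.card = 2 → b'.card = 2 → Disjoint b b' →
      ∀ F, 0 ≤ ip (Qk (key b) F) (Qk (key b') F))
    (htri : ∀ T : Finset V, T.card = 3 →
      ∀ F, ip F (Asum key T F) ≤ ip (Asum key T F) (Asum key T F))
    (F : Ω → ℝ) :
    ip F (Asum key univ F) ≤ ip (Asum key univ F) (Asum key univ F) := by
  have hsq : ∀ T : Finset V, ip (Asum key T F) (Asum key T F)
      = ∑ b ∈ T.powersetCard 2, ∑ b' ∈ T.powersetCard 2,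
          ip (Qk (key b) F) (Qk (key b') F) := by
    intro T
    unfold Asum
    rw [ip_sum_left_abs]
    exact Finset.sum_congr rfl (fun b _ => ip_sum_right_abs _ _ _)
  have htriple : ∀ T ∈ (univ : Finset V).powersetCard 3,
      0 ≤ ∑ b ∈ T.powersetCard 2, ∑ b' ∈ (T.powersetCard 2).erase b,
        ip (Qk (key b) F) (Qk (key b') F) := by
    intro T hT
    have hTc : T.card = 3 := (Finset.mem_powersetCard.mp hT).2
    have h1 : ∀ b ∈ T.powersetCard 2,
        ∑ b' ∈ (T.powersetCard 2).erase b, ip (Qk (key b) F) (Qk (key b') F)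
          = ∑ b' ∈ T.powersetCard 2, ip (Qk (key b) F) (Qk (key b') F)
            - ip (Qk (key b) F) (Qk (key b) F) := by
      intro b hb
      rw [← Finset.add_sum_erase _ _ hb]
      ring
    rw [Finset.sum_congr rfl h1, Finset.sum_sub_distrib, ← hsq T, ← ip_self_Asum]
    have := htri T hTc F
    linarith
  have hov : 0 ≤ ∑ b ∈ (univ : Finset V).powersetCard 2,
      ∑ b' ∈ ((univ : Finset V).powersetCard 2).filter (fun b' => (b ∩ b').card = 1),
        ip (Qk (key b) F) (Qk (key b') F) := by
    rw [sum_overlap_eq (fun b b' => ip (Qk (key b) F) (Qk (key b') F))]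
    exact Finset.sum_nonneg htriple
  have hds : 0 ≤ ∑ b ∈ (univ : Finset V).powersetCard 2,
      ∑ b' ∈ ((univ : Finset V).powersetCard 2).filter (fun b' => Disjoint b b'),
        ip (Qk (key b) F) (Qk (key b') F) := by
    refine Finset.sum_nonneg fun b hb => Finset.sum_nonneg fun b' hb' => ?_
    rw [Finset.mem_filter] at hb'
    exact hdis b b' (Finset.mem_powersetCard.mp hb).2 (Finset.mem_powersetCard.mp hb'.1).2
      hb'.2 F
  rw [hsq univ, sum_pairs_split' (fun b b' => ip (Qk (key b) F) (Qk (key b') F)), ip_self_Asum]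
  linarith

/-- `Asum` as a linear map -/
noncomputable def AsumL (key : Finset V → Ω → K) (T : Finset V) : (Ω → ℝ) →ₗ[ℝ] (Ω → ℝ) :=
  ∑ b ∈ T.powersetCard 2, (LinearMap.id - avgL (key b))

theorem AsumL_apply (key : Finset V → Ω → K) (T : Finset V) (F : Ω → ℝ) :
    AsumL key T F = Asum key T F := by
  unfold AsumL Asum Qk
  rw [LinearMap.sum_apply]
  rfl

theorem ip_self_nonneg_aux (F : Ω → ℝ) : 0 ≤ ip F F := by
  unfold ip
  exact Finset.sum_nonneg (fun ω _ => mul_self_nonneg _)

theorem eq_zero_of_ip_self_aux (F : Ω → ℝ) (h : ip F F = 0) : F = 0 := by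
  unfold ip at h
  rw [Finset.sum_eq_zero_iff_of_nonneg (fun ω _ => mul_self_nonneg _)] at h
  funext ω
  exact mul_self_eq_zero.1 (h ω (Finset.mem_univ ω))

theorem avg_eq_of_Asum_eq_zero (key : Finset V → Ω → K) (T : Finset V) (f : Ω → ℝ)
    (hf : Asum key T f = 0) : ∀ b ∈ T.powersetCard 2, avg (key b) f = f := by
  have h1 : ∑ b ∈ T.powersetCard 2, ip (Qk (key b) f) (Qk (key b) f) = 0 := by
    rw [← ip_self_Asum, hf]
    simp [ip]
  rw [Finset.sum_eq_zero_iff_of_nonneg (fun b _ => ip_self_nonneg_aux _)] at h1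
  intro b hb
  have h2 := eq_zero_of_ip_self_aux _ (h1 b hb)
  unfold Qk at h2
  exact (sub_eq_zero.1 h2).symm

/-- Spectral consequence: a function orthogonal to all functions fixed by every `avg (key b)`
satisfies the Poincare inequality with constant one. -/
theorem caputo_gap (key : Finset V → Ω → K)
    (hsq : ∀ F, ip F (Asum key univ F) ≤ ip (Asum key univ F) (Asum key univ F))
    (F : Ω → ℝ)
    (hF : ∀ f : Ω → ℝ, (∀ b ∈ (univ : Finset V).powersetCard 2, avg (key b) f = f) → ip F f = 0) :
    ip F F ≤ ∑ b ∈ (univ : Finset V).powersetCard 2, ip (Qk (key b) F) (Qk (key b) F) := by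
  have h := gap_of_sq_ge (AsumL key univ)
    (fun F G => by rw [AsumL_apply, AsumL_apply]; exact Asum_symm key univ F G)
    (fun F => by
      rw [AsumL_apply, ip_self_Asum]
      exact Finset.sum_nonneg (fun b _ => ip_self_nonneg_aux _))
    (fun F => by rw [AsumL_apply]; exact hsq F)
    F
    (fun f hf => by
      rw [AsumL_apply] at hf
      exact hF f (avg_eq_of_Asum_eq_zero key univ f hf))
  rwa [AsumL_apply, ip_self_Asum] at h

/-- A triple satisfies `A_T ≤ A_T²` as soon as every eigenfunction of the sum of the three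
averaging operators with eigenvalue larger than two is fixed by the three operators. -/
theorem triple_of_eigen (key : Finset V → Ω → K) (T : Finset V) (hT : T.card = 3)
    (heig : ∀ (lam : ℝ) (f : Ω → ℝ), 2 < lam →
      (∑ b ∈ T.powersetCard 2, avg (key b) f = lam • f) →
      ∀ b ∈ T.powersetCard 2, avg (key b) f = f)
    (F : Ω → ℝ) :
    ip F (Asum key T F) ≤ ip (Asum key T F) (Asum key T F) := by
  have hcard : ((T.powersetCard 2).card : ℝ) = 3 := by
    rw [Finset.card_powersetCard, hT]
    norm_num [Nat.choose]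
  have hexp : ∀ f : Ω → ℝ,
      Asum key T f = (3 : ℝ) • f - ∑ b ∈ T.powersetCard 2, avg (key b) f := by
    intro f
    unfold Asum Qk
    rw [Finset.sum_sub_distrib, Finset.sum_const, ← hcard, Nat.cast_smul_eq_nsmul]
  have h := sq_ge_of_eigen (AsumL key T)
    (fun F G => by rw [AsumL_apply, AsumL_apply]; exact Asum_symm key T F G)
    (fun μ f hne hf => by
      rw [AsumL_apply] at hf
      by_cases hμ : 1 ≤ μ
      · exact Or.inr hμ
      · left
        push Not at hμ
        have h1 : ∑ b ∈ T.powersetCard 2, avg (key b) f = (3 - μ) • f := by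
          have h2 := hexp f
          rw [hf] at h2
          rw [sub_smul, h2]
          abel
        have h3 := heig (3 - μ) f (by linarith) h1
        have h4 : Asum key T f = 0 := by
          unfold Asum Qk
          exact Finset.sum_eq_zero (fun b hb => by rw [h3 b hb, sub_self])
        rw [h4] at hf
        rcases smul_eq_zero.1 hf.symm with h5 | h5
        · exact h5
        · exact absurd h5 hne)
    F
  rwa [AsumL_apply] at h

end Vale.Agent.P328.HB
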