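import Vale.Agent.P328.HB.Poincare
import Vale.Agent.P335.Mixing

/-!
# P328: the heat-bath kernel as an average of block averaging operators; L2 contraction
-/

namespace Vale.Agent.P328.HB

open Finset Vale.Agent.P335

set_option linter.unusedSectionVars false

variable {ι κ : Type*} [Fintype ι] [Fintype κ] [DecidableEq ι] [DecidableEq κ]
variable {r : ι → ℕ} {c : κ → ℕ}

/-- number of blocks -/
noncomputable def nblk (ι κ : Type*) [Fintype ι] [Fintype κ] : ℝ :=
  ((Fintype.card ι).choose 2 : ℝ) * ((Fintype.card κ).choose 2 : ℝ)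

theorem nblk_pos (hι : 2 ≤ Fintype.card ι) (hκ : 2 ≤ Fintype.card κ) : 1 ≤ nblk ι κ := by
  unfold nblk
  have h1 : 1 ≤ (Fintype.card ι).choose 2 := Nat.choose_pos hι
  have h2 : 1 ≤ (Fintype.card κ).choose 2 := Nat.choose_pos hκ
  have h1' : (1 : ℝ) ≤ ((Fintype.card ι).choose 2 : ℝ) := by exact_mod_cast h1
  have h2' : (1 : ℝ) ≤ ((Fintype.card κ).choose 2 : ℝ) := by exact_mod_cast h2
  nlinarith

open Classical in
private theorem block_apply (b : Finset ι) (β : Finset κ) (F : Tab r c → ℝ) (X : Tab r c) :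
    ∑ Y, (if AgreeOff b β X Y then 1 / ((fibre b β X).card : ℝ) else 0) * F Y =
      EB (b ×ˢ β) F X := by
  unfold EB
  rw [avg_apply, cls_offKey_eq_fibre, Finset.sum_div]
  conv_rhs => unfold fibre
  rw [Finset.sum_filter]
  apply Finset.sum_congr rfl
  intro Y _
  by_cases h : AgreeOff b β X Y
  · rw [if_pos h, if_pos h]
    unfold fibre
    ring
  · rw [if_neg h, if_neg h]
    ring

/-- the kernel acts as the average of the block operators -/
theorem hb_apply (F : Tab r c → ℝ) (X : Tab r c) :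
    ∑ Y, hbKernel r c X Y * F Y =
      (1 / nblk ι κ) * ∑ b ∈ (univ : Finset ι).powersetCard 2,
        ∑ β ∈ (univ : Finset κ).powersetCard 2, EB (b ×ˢ β) F X := by
  classical
  have e : ∀ Y, hbKernel r c X Y * F Y =
      (1 / nblk ι κ) * ∑ b ∈ (univ : Finset ι).powersetCard 2,
        ∑ β ∈ (univ : Finset κ).powersetCard 2,
          (if AgreeOff b β X Y then 1 / ((fibre b β X).card : ℝ) else 0) * F Y := by
    intro Y
    unfold hbKernel nblk
    rw [mul_assoc, Finset.sum_mul]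
    congr 1
    apply Finset.sum_congr rfl
    intro b _
    rw [Finset.sum_mul]
  simp_rw [e]
  rw [← Finset.mul_sum, Finset.sum_comm]
  congr 1
  apply Finset.sum_congr rfl
  intro b _
  rw [Finset.sum_comm]
  apply Finset.sum_congr rfl
  intro β _
  exact block_apply b β F X

private theorem agreeOff_symm {b : Finset ι} {β : Finset κ} {X Y : Tab r c}
    (h : AgreeOff b β X Y) : AgreeOff b β Y X := fun i j hij => (h i j hij).symm

private theorem fibre_eq_of_agree {b : Finset ι} {β : Finset κ} {X Y : Tab r c}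
    (h : AgreeOff b β X Y) : fibre b β X = fibre b β Y := by
  classical
  ext Z
  simp only [fibre, Finset.mem_filter, Finset.mem_univ, true_and]
  constructor
  · intro hZ i j hij
    rw [hZ i j hij, h i j hij]
  · intro hZ i j hij
    rw [hZ i j hij, h i j hij]

theorem hb_symm (X Y : Tab r c) : hbKernel r c X Y = hbKernel r c Y X := by
  classical
  unfold hbKernel
  congr 1
  apply Finset.sum_congr rfl
  intro b _
  apply Finset.sum_congr rfl
  intro β _
  by_cases h : AgreeOff b β X Y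
  · rw [if_pos h, if_pos (agreeOff_symm h), fibre_eq_of_agree h]
  · rw [if_neg h, if_neg (fun h' => h (agreeOff_symm h'))]

private theorem sum_blocks_one :
    ∑ _b ∈ (univ : Finset ι).powersetCard 2, ∑ _β ∈ (univ : Finset κ).powersetCard 2, (1 : ℝ)
      = nblk ι κ := by
  unfold nblk
  simp only [Finset.sum_const, Finset.card_powersetCard, Finset.card_univ, nsmul_eq_mul, mul_one]

theorem hb_row_sum (hι : 2 ≤ Fintype.card ι) (hκ : 2 ≤ Fintype.card κ) (X : Tab r c) :
    ∑ Y, hbKernel r c X Y = 1 := by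
  have h := hb_apply (fun _ => (1 : ℝ)) X
  simp only [mul_one] at h
  rw [h]
  have e : ∀ (b : Finset ι) (β : Finset κ), EB (b ×ˢ β) (fun _ : Tab r c => (1 : ℝ)) X = 1 := by
    intro b β
    unfold EB
    exact avg_eq_self_at _ _ X (fun _ _ => rfl)
  simp_rw [e]
  rw [sum_blocks_one]
  have := nblk_pos hι hκ
  field_simp

/-- L2 contraction on functions of zero sum -/
theorem hb_contract (hι : 2 ≤ Fintype.card ι) (hκ : 2 ≤ Fintype.card κ)
    (F : Tab r c → ℝ) (hF : ∑ X, F X = 0) :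
    ∑ X, (∑ Y, hbKernel r c X Y * F Y) ^ 2 ≤ (1 - 1 / nblk ι κ) * ∑ X, F X ^ 2 := by
  have hN := nblk_pos hι hκ
  have hN0 : 0 < nblk ι κ := by linarith
  obtain ⟨I, hI⟩ : ∃ I : Finset (Finset ι × Finset κ),
      I = (univ : Finset ι).powersetCard 2 ×ˢ (univ : Finset κ).powersetCard 2 := ⟨_, rfl⟩
  have hcard : (I.card : ℝ) = nblk ι κ := by
    rw [hI, Finset.card_product, Finset.card_powersetCard, Finset.card_powersetCard,
      Finset.card_univ, Finset.card_univ]
    unfold nblk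
    push_cast
    ring
  have hsum : ∀ g : Finset ι → Finset κ → ℝ,
      ∑ b ∈ (univ : Finset ι).powersetCard 2, ∑ β ∈ (univ : Finset κ).powersetCard 2, g b β =
        ∑ k ∈ I, g k.1 k.2 := by
    intro g
    rw [hI, Finset.sum_product]
  have h1 : ∀ X, (∑ Y, hbKernel r c X Y * F Y) ^ 2 ≤
      (1 / nblk ι κ) * ∑ k ∈ I, (EB (k.1 ×ˢ k.2) F X) ^ 2 := by
    intro X
    rw [hb_apply, hsum (fun b β => EB (b ×ˢ β) F X)]
    have h3 := sq_sum_le_card_mul_sum_sq (s := I) (f := fun k => EB (k.1 ×ˢ k.2) F X)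
    rw [hcard] at h3
    rw [mul_pow]
    have h4 : (1 / nblk ι κ) ^ 2 * (nblk ι κ * ∑ k ∈ I, (EB (k.1 ×ˢ k.2) F X) ^ 2) =
        (1 / nblk ι κ) * ∑ k ∈ I, (EB (k.1 ×ˢ k.2) F X) ^ 2 := by
      field_simp
    rw [← h4]
    exact mul_le_mul_of_nonneg_left h3 (by positivity)
  have h2 : ∑ X, (1 / nblk ι κ) * ∑ k ∈ I, (EB (k.1 ×ˢ k.2) F X) ^ 2 =
      (1 / nblk ι κ) * ∑ k ∈ I, ip (EB (k.1 ×ˢ k.2) F) (EB (k.1 ×ˢ k.2) F) := by
    rw [← Finset.mul_sum, Finset.sum_comm]
    congr 1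
    apply Finset.sum_congr rfl
    intro k _
    unfold ip
    apply Finset.sum_congr rfl
    intro X _
    ring
  have h5 : ∑ k ∈ I, ip (EB (k.1 ×ˢ k.2) F) (EB (k.1 ×ˢ k.2) F) =
      nblk ι κ * ip F F - ∑ k ∈ I, ip (QB (k.1 ×ˢ k.2) F) (QB (k.1 ×ˢ k.2) F) := by
    simp_rw [ip_EB_EB]
    rw [Finset.sum_sub_distrib, Finset.sum_const, nsmul_eq_mul, hcard]
  have h6 := block_poincare F hF
  rw [hsum (fun b β => ip (QB (b ×ˢ β) F) (QB (b ×ˢ β) F))] at h6
  have h7 : ∑ X, F X ^ 2 = ip F F := by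
    unfold ip
    apply Finset.sum_congr rfl
    intro X _
    ring
  calc ∑ X, (∑ Y, hbKernel r c X Y * F Y) ^ 2
      ≤ ∑ X, (1 / nblk ι κ) * ∑ k ∈ I, (EB (k.1 ×ˢ k.2) F X) ^ 2 :=
        Finset.sum_le_sum (fun X _ => h1 X)
    _ = (1 / nblk ι κ) *
        (nblk ι κ * ip F F - ∑ k ∈ I, ip (QB (k.1 ×ˢ k.2) F) (QB (k.1 ×ˢ k.2) F)) := by
        rw [h2, h5]
    _ ≤ (1 / nblk ι κ) * (nblk ι κ * ip F F - ip F F) := by
        apply mul_le_mul_of_nonneg_left _ (by positivity)
        linarith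
    _ = (1 - 1 / nblk ι κ) * ∑ X, F X ^ 2 := by
        rw [h7]
        field_simp

/-- total variation bound -/
theorem hb_tv (hι : 2 ≤ Fintype.card ι) (hκ : 2 ≤ Fintype.card κ) (X : Tab r c) (t : ℕ) :
    tv ((hbKernel r c ^ t) X) (unif r c) ≤
      (1 / 2 : ℝ) * Real.sqrt ((Fintype.card (Tab r c) : ℝ) * (1 - 1 / nblk ι κ) ^ t) := by
  have hN := nblk_pos hι hκ
  have hc : 0 ≤ 1 - 1 / nblk ι κ := by
    have : 1 / nblk ι κ ≤ 1 := by
      rw [div_le_one (by linarith)]
      exact hN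
    linarith
  obtain ⟨-, h2⟩ := mix_iter (hbKernel r c) hb_symm (hb_row_sum hι hκ) (1 - 1 / nblk ι κ) hc
    (hb_contract hι hκ) X t
  unfold tv unif
  apply mul_le_mul_of_nonneg_left _ (by norm_num)
  apply Real.le_sqrt_of_sq_le
  have h3 := sq_sum_le_card_mul_sum_sq (s := (Finset.univ : Finset (Tab r c)))
    (f := fun y => |(hbKernel r c ^ t) X y - 1 / (Fintype.card (Tab r c) : ℝ)|)
  simp only [sq_abs, Finset.card_univ] at h3
  refine le_trans h3 ?_
  exact mul_le_mul_of_nonneg_left h2 (Nat.cast_nonneg _)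

/-- crude bound on the number of tables -/
theorem card_tab_le (r : ι → ℕ) (c : κ → ℕ) :
    Fintype.card (Tab r c) ≤ (∑ i, r i + 1) ^ (Fintype.card ι * Fintype.card κ) := by
  have hle : ∀ (X : Tab r c) (i : ι) (j : κ), X.1 i j < ∑ i, r i + 1 := by
    intro X i j
    have h1 := X.entry_le i j
    have h2 : r i ≤ ∑ i, r i :=
      Finset.single_le_sum (f := fun i => r i) (fun _ _ => Nat.zero_le _) (Finset.mem_univ i)
    omega
  have hinj : Function.Injective
      (fun X : Tab r c => fun i : ι => fun j : κ => (⟨X.1 i j, hle X i j⟩ : Fin (∑ i, r i + 1))) := by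
    intro X Y h
    apply Subtype.ext
    funext i j
    have := congrFun (congrFun h i) j
    exact congrArg Fin.val this
  have h := Fintype.card_le_of_injective _ hinj
  refine le_trans h (le_of_eq ?_)
  rw [Fintype.card_fun, Fintype.card_fun, Fintype.card_fin, ← pow_mul, mul_comm]

end Vale.Agent.P328.HB
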