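import Vale.Agent.P328.HB.Keys

/-!
# P328: connectivity of contingency tables under 2 x 2 moves
-/

namespace Vale.Agent.P328.HB

open Finset Vale.Agent.P335

set_option linter.unusedSectionVars false

variable {ι κ : Type*} [Fintype ι] [Fintype κ] [DecidableEq ι] [DecidableEq κ]
variable {r : ι → ℕ} {c : κ → ℕ}

/-- l1 distance of two tables -/
def tdist (X Y : Tab r c) : ℕ := ∑ i, ∑ j, ((X.1 i j : ℤ) - (Y.1 i j : ℤ)).natAbs

theorem tdist_eq_zero {X Y : Tab r c} (h : tdist X Y = 0) : X = Y := by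
  unfold tdist at h
  apply Subtype.ext
  funext i j
  have h1 := (Finset.sum_eq_zero_iff.mp h) i (mem_univ i)
  have h2 := (Finset.sum_eq_zero_iff.mp h1) j (mem_univ j)
  omega

/-- moving one unit from `j` to `j'` does not change the sum -/
private theorem conn_sum_shift {γ : Type*} [Fintype γ] [DecidableEq γ] (f g : γ → ℕ) {j j' : γ}
    (hj : j ≠ j') (h1 : g j + 1 = f j) (h2 : g j' = f j' + 1)
    (h3 : ∀ b, b ≠ j → b ≠ j' → g b = f b) : ∑ b, g b = ∑ b, f b := by
  have hm : j' ∈ (univ : Finset γ).erase j := Finset.mem_erase.mpr ⟨hj.symm, mem_univ _⟩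
  rw [← Finset.add_sum_erase univ g (mem_univ j), ← Finset.add_sum_erase univ f (mem_univ j),
    ← Finset.add_sum_erase _ g hm, ← Finset.add_sum_erase _ f hm]
  have h4 : ∑ b ∈ ((univ : Finset γ).erase j).erase j', g b
      = ∑ b ∈ ((univ : Finset γ).erase j).erase j', f b := by
    apply Finset.sum_congr rfl
    intro b hb
    have hb1 := Finset.ne_of_mem_erase hb
    have hb2 := Finset.ne_of_mem_erase (Finset.mem_of_mem_erase hb)
    exact h3 b hb2 hb1
  omega

/-- equal sums: a smaller term forces a larger term -/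
private theorem conn_exists_gt {γ : Type*} [Fintype γ] (f g : γ → ℕ) (hs : ∑ b, f b = ∑ b, g b)
    (j : γ) (h : f j < g j) : ∃ j', g j' < f j' := by
  by_contra hcon
  have hle : ∀ b ∈ (univ : Finset γ), f b ≤ g b := by
    intro b _
    by_contra hb
    exact hcon ⟨b, not_le.mp hb⟩
  have := Finset.sum_lt_sum hle ⟨j, mem_univ j, h⟩
  omega

/-- the unit switch: subtract one at `(i,j)`, `(i',j')`, add one at `(i,j')`, `(i',j)` -/
theorem exists_switch (X : Tab r c) {i i' : ι} {j j' : κ} (hi : i ≠ i') (hj : j ≠ j')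
    (h1 : 1 ≤ X.1 i j) (h2 : 1 ≤ X.1 i' j') :
    ∃ X' : Tab r c, X'.1 i j + 1 = X.1 i j ∧ X'.1 i' j' + 1 = X.1 i' j' ∧
      X'.1 i j' = X.1 i j' + 1 ∧ X'.1 i' j = X.1 i' j + 1 ∧
      ∀ a b, ¬ ((a = i ∨ a = i') ∧ (b = j ∨ b = j')) → X'.1 a b = X.1 a b := by
  obtain ⟨Z, hZ⟩ : ∃ Z : ι → κ → ℕ, Z = fun a b =>
      if a = i ∧ b = j then X.1 i j - 1
      else if a = i' ∧ b = j' then X.1 i' j' - 1
      else if a = i ∧ b = j' then X.1 i j' + 1
      else if a = i' ∧ b = j then X.1 i' j + 1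
      else X.1 a b := ⟨_, rfl⟩
  have z1 : Z i j + 1 = X.1 i j := by
    rw [hZ]; simp only [and_self, if_true]; omega
  have z2 : Z i' j' + 1 = X.1 i' j' := by
    rw [hZ]
    beta_reduce
    rw [if_neg (fun h => hi h.1.symm), if_pos ⟨rfl, rfl⟩]
    omega
  have z3 : Z i j' = X.1 i j' + 1 := by
    rw [hZ]
    beta_reduce
    rw [if_neg (fun h => hj h.2.symm), if_neg (fun h => hi h.1), if_pos ⟨rfl, rfl⟩]
  have z4 : Z i' j = X.1 i' j + 1 := by
    rw [hZ]
    beta_reduce
    rw [if_neg (fun h => hi h.1.symm), if_neg (fun h => hj h.2), if_neg (fun h => hi h.1.symm),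
      if_pos ⟨rfl, rfl⟩]
  have z5 : ∀ a b, ¬ ((a = i ∨ a = i') ∧ (b = j ∨ b = j')) → Z a b = X.1 a b := by
    intro a b hab
    rw [hZ]
    beta_reduce
    rw [if_neg (fun h => hab ⟨Or.inl h.1, Or.inl h.2⟩),
      if_neg (fun h => hab ⟨Or.inr h.1, Or.inr h.2⟩),
      if_neg (fun h => hab ⟨Or.inl h.1, Or.inr h.2⟩),
      if_neg (fun h => hab ⟨Or.inr h.1, Or.inl h.2⟩)]
  have hrow : ∀ a, ∑ b, Z a b = r a := by
    intro a
    rw [← X.2.1 a]
    by_cases ha : a = i
    · rw [ha]
      apply conn_sum_shift (fun b => X.1 i b) (fun b => Z i b) hj z1 z3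
      intro b hb1 hb2
      exact z5 i b (fun h => h.2.elim hb1 hb2)
    by_cases ha' : a = i'
    · rw [ha']
      apply conn_sum_shift (fun b => X.1 i' b) (fun b => Z i' b) hj.symm z2 z4
      intro b hb1 hb2
      exact z5 i' b (fun h => h.2.elim hb2 hb1)
    · apply Finset.sum_congr rfl
      intro b _
      exact z5 a b (fun h => h.1.elim ha ha')
  have hcol : ∀ b, ∑ a, Z a b = c b := by
    intro b
    rw [← X.2.2 b]
    by_cases hb : b = j
    · rw [hb]
      apply conn_sum_shift (fun a => X.1 a j) (fun a => Z a j) hi z1 z4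
      intro a ha1 ha2
      exact z5 a j (fun h => h.1.elim ha1 ha2)
    by_cases hb' : b = j'
    · rw [hb']
      apply conn_sum_shift (fun a => X.1 a j') (fun a => Z a j') hi.symm z2 z3
      intro a ha1 ha2
      exact z5 a j' (fun h => h.1.elim ha2 ha1)
    · apply Finset.sum_congr rfl
      intro a _
      exact z5 a b (fun h => h.2.elim hb hb')
  exact ⟨⟨Z, hrow, hcol⟩, z1, z2, z3, z4, z5⟩

/-- the sum of the indicator of one cell -/
private theorem conn_sum_cell (i : ι) (j : κ) :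
    ∑ a : ι, ∑ b : κ, (if a = i ∧ b = j then 1 else 0 : ℕ) = 1 := by
  simp [ite_and]

/-- two different tables: a 2 x 2 move of `X`, inside rows in which `X` and `Y` differ,
brings `X` closer to `Y` -/
theorem exists_closer (X Y : Tab r c) (h : X ≠ Y) :
    ∃ (b : Finset ι) (β : Finset κ) (X' : Tab r c), b.card = 2 ∧ β.card = 2 ∧
      (∀ i ∈ b, ∃ j, X.1 i j ≠ Y.1 i j) ∧
      offKey (b ×ˢ β) X' = offKey (b ×ˢ β) X ∧ tdist X' Y < tdist X Y := by
  have hrowXY : ∀ a, ∑ b, X.1 a b = ∑ b, Y.1 a b := fun a => by rw [X.2.1, Y.2.1]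
  have hcolXY : ∀ b, ∑ a, X.1 a b = ∑ a, Y.1 a b := fun b => by rw [X.2.2, Y.2.2]
  -- a cell with `X > Y`
  obtain ⟨i, j, hij⟩ : ∃ i j, Y.1 i j < X.1 i j := by
    have hne : ∃ i j, X.1 i j ≠ Y.1 i j := by
      by_contra hcon
      apply h
      apply Subtype.ext
      funext i j
      by_contra hc
      exact hcon ⟨i, j, hc⟩
    obtain ⟨i0, j0, h0⟩ := hne
    rcases Nat.lt_or_gt_of_ne h0 with hlt | hgt
    · obtain ⟨j1, hj1⟩ := conn_exists_gt (fun b => X.1 i0 b) (fun b => Y.1 i0 b) (hrowXY i0) j0 hlt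
      exact ⟨i0, j1, hj1⟩
    · exact ⟨i0, j0, hgt⟩
  obtain ⟨j', hj'⟩ := conn_exists_gt (fun b => Y.1 i b) (fun b => X.1 i b) (hrowXY i).symm j hij
  obtain ⟨i', hi'⟩ := conn_exists_gt (fun a => X.1 a j') (fun a => Y.1 a j') (hcolXY j') i hj'
  replace hj' : X.1 i j' < Y.1 i j' := hj'
  replace hi' : Y.1 i' j' < X.1 i' j' := hi'
  have hii : i ≠ i' := by
    intro he
    rw [← he] at hi'
    omega
  have hjj : j ≠ j' := by
    intro he
    rw [← he] at hj'
    omega
  obtain ⟨X', x1, x2, x3, x4, x5⟩ := exists_switch X hii hjj (by omega) (by omega)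
  refine ⟨{i, i'}, {j, j'}, X', Finset.card_pair hii, Finset.card_pair hjj, ?_, ?_, ?_⟩
  · intro a ha
    rw [Finset.mem_insert, Finset.mem_singleton] at ha
    rcases ha with rfl | rfl
    · exact ⟨j, by omega⟩
    · exact ⟨j', by omega⟩
  · rw [offKey_eq_iff]
    intro a b hab
    apply x5
    intro hcon
    apply hab
    rw [Finset.mem_product, Finset.mem_insert, Finset.mem_singleton, Finset.mem_insert,
      Finset.mem_singleton]
    exact hcon
  · have hpt : ∀ a b, ((X'.1 a b : ℤ) - (Y.1 a b : ℤ)).natAbs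
        + (if a = i ∧ b = j then 1 else 0 : ℕ) + (if a = i' ∧ b = j' then 1 else 0 : ℕ)
        + (if a = i ∧ b = j' then 1 else 0 : ℕ)
        ≤ ((X.1 a b : ℤ) - (Y.1 a b : ℤ)).natAbs + (if a = i' ∧ b = j then 1 else 0 : ℕ) := by
      intro a b
      by_cases c1 : a = i ∧ b = j
      · obtain ⟨rfl, rfl⟩ := c1
        rw [if_pos ⟨rfl, rfl⟩, if_neg (fun h => hii h.1), if_neg (fun h => hjj h.2),
          if_neg (fun h => hii h.1)]
        omega
      by_cases c2 : a = i' ∧ b = j'
      · obtain ⟨rfl, rfl⟩ := c2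
        rw [if_neg c1, if_pos ⟨rfl, rfl⟩, if_neg (fun h => hii h.1.symm),
          if_neg (fun h => hjj h.2.symm)]
        omega
      by_cases c3 : a = i ∧ b = j'
      · obtain ⟨rfl, rfl⟩ := c3
        rw [if_neg c1, if_neg c2, if_pos ⟨rfl, rfl⟩, if_neg (fun h => hii h.1)]
        omega
      by_cases c4 : a = i' ∧ b = j
      · obtain ⟨rfl, rfl⟩ := c4
        rw [if_neg c1, if_neg c2, if_neg c3, if_pos ⟨rfl, rfl⟩]
        omega
      · rw [if_neg c1, if_neg c2, if_neg c3, if_neg c4]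
        have : X'.1 a b = X.1 a b := by
          apply x5
          rintro ⟨ha | ha, hb | hb⟩
          · exact c1 ⟨ha, hb⟩
          · exact c3 ⟨ha, hb⟩
          · exact c4 ⟨ha, hb⟩
          · exact c2 ⟨ha, hb⟩
        rw [this]
    have hsum := Finset.sum_le_sum (fun a (_ : a ∈ (univ : Finset ι)) =>
      Finset.sum_le_sum (fun b (_ : b ∈ (univ : Finset κ)) => hpt a b))
    simp only [Finset.sum_add_distrib] at hsum
    rw [conn_sum_cell, conn_sum_cell, conn_sum_cell, conn_sum_cell] at hsum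
    unfold tdist
    omega

/-- a function invariant under all 2 x 2 moves inside the rows `R` takes the same value on two
tables which agree outside the rows `R` -/
theorem const_of_block_inv (R : Finset ι) (f : Tab r c → ℝ)
    (hinv : ∀ b : Finset ι, b ⊆ R → b.card = 2 → ∀ β : Finset κ, β.card = 2 →
      ∀ X X' : Tab r c, offKey (b ×ˢ β) X = offKey (b ×ˢ β) X' → f X = f X')
    (X Y : Tab r c) (hXY : offKey (R ×ˢ (univ : Finset κ)) X = offKey (R ×ˢ (univ : Finset κ)) Y) :
    f X = f Y := by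
  obtain ⟨n, hn⟩ : ∃ n, tdist X Y = n := ⟨_, rfl⟩
  induction n using Nat.strong_induction_on generalizing X with
  | _ n ih =>
    by_cases hne : X = Y
    · rw [hne]
    obtain ⟨b, β, X', hb, hβ, hdiff, hkey, hlt⟩ := exists_closer X Y hne
    have hbR : b ⊆ R := by
      intro a ha
      obtain ⟨j, hj⟩ := hdiff a ha
      by_contra haR
      apply hj
      apply (offKey_eq_iff _ X Y).mp hXY a j
      intro hmem
      exact haR (Finset.mem_product.mp hmem).1
    have h1 : f X = f X' := hinv b hbR hb β hβ X X' hkey.symm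
    have hsub : b ×ˢ β ⊆ R ×ˢ (univ : Finset κ) :=
      Finset.product_subset_product hbR (Finset.subset_univ _)
    have h2 : offKey (R ×ˢ (univ : Finset κ)) X' = offKey (R ×ˢ (univ : Finset κ)) Y :=
      (offKey_mono hsub hkey).trans hXY
    rw [h1]
    exact ih (tdist X' Y) (by omega) X' h2 rfl

end Vale.Agent.P328.HB
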