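import Mathlib

/-!
# P328: contingency tables and the 2 x 2 heat-bath chain (definitions)
-/

namespace Vale.Agent.P328.HB

open Finset

variable {ι κ : Type*} [Fintype ι] [Fintype κ]

/-- `Tab r c`: the nonnegative integer tables with row sums `r` and column sums `c`. -/
def Tab (r : ι → ℕ) (c : κ → ℕ) : Type _ :=
  {X : ι → κ → ℕ // (∀ i, ∑ j, X i j = r i) ∧ (∀ j, ∑ i, X i j = c j)}

theorem Tab.entry_le {r : ι → ℕ} {c : κ → ℕ} (X : Tab r c) (i : ι) (j : κ) : X.1 i j ≤ r i := by
  rw [← X.2.1 i]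
  exact Finset.single_le_sum (f := fun j => X.1 i j) (fun _ _ => Nat.zero_le _) (Finset.mem_univ j)

instance (r : ι → ℕ) (c : κ → ℕ) : Finite (Tab r c) := by
  classical
  refine Finite.of_injective
    (fun X : Tab r c => fun i : ι => fun j : κ =>
      (⟨X.1 i j, Nat.lt_succ_of_le (X.entry_le i j)⟩ : Fin (r i + 1))) ?_
  intro X Y h
  apply Subtype.ext
  funext i j
  have := congrFun (congrFun h i) j
  exact congrArg Fin.val this

noncomputable instance (r : ι → ℕ) (c : κ → ℕ) : Fintype (Tab r c) := Fintype.ofFinite _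

noncomputable instance (r : ι → ℕ) (c : κ → ℕ) : DecidableEq (Tab r c) := Classical.decEq _

/-- `X` and `Y` agree outside the block `b × β`. -/
def AgreeOff {r : ι → ℕ} {c : κ → ℕ} (b : Finset ι) (β : Finset κ) (X Y : Tab r c) : Prop :=
  ∀ i j, ¬ (i ∈ b ∧ j ∈ β) → Y.1 i j = X.1 i j

open Classical in
/-- The tables which agree with `X` outside the block `b × β`. -/
noncomputable def fibre {r : ι → ℕ} {c : κ → ℕ} (b : Finset ι) (β : Finset κ) (X : Tab r c) :
    Finset (Tab r c) :=
  univ.filter (fun Y => AgreeOff b β X Y)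

open Classical in
/-- The 2 x 2 heat-bath chain: choose two rows `b` and two columns `β` uniformly at random and
replace the table by a uniformly random table agreeing with it outside `b × β`. -/
noncomputable def hbKernel (r : ι → ℕ) (c : κ → ℕ) : Matrix (Tab r c) (Tab r c) ℝ := fun X Y =>
  (1 / (((Fintype.card ι).choose 2 : ℝ) * ((Fintype.card κ).choose 2 : ℝ))) *
    ∑ b ∈ (univ : Finset ι).powersetCard 2, ∑ β ∈ (univ : Finset κ).powersetCard 2,
      (if AgreeOff b β X Y then 1 / ((fibre b β X).card : ℝ) else 0)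

/-- Total variation distance. -/
noncomputable def tv {Ω : Type*} [Fintype Ω] (μ ν : Ω → ℝ) : ℝ := (1 / 2 : ℝ) * ∑ x, |μ x - ν x|

/-- The uniform distribution on `Tab r c`. -/
noncomputable def unif (r : ι → ℕ) (c : κ → ℕ) : Tab r c → ℝ :=
  fun _ => 1 / (Fintype.card (Tab r c) : ℝ)

end Vale.Agent.P328.HB
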