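import Vale.Agent.P328.HB.Chain

/-!
# P328: mixing time of the 2 x 2 heat-bath chain
-/

namespace Vale.Agent.P328.HB

open Finset Vale.Agent.P335

/-- pure real-number step -/
theorem final_numeric (M γ ε : ℝ) (t : ℕ) (hM : 1 ≤ M) (hγ0 : 0 < γ) (hγ1 : γ ≤ 1) (hε : 0 < ε)
    (ht : (1 / γ) * (Real.log M + 2 * Real.log (1 / ε)) ≤ t) :
    (1 / 2 : ℝ) * Real.sqrt (M * (1 - γ) ^ t) ≤ ε := by
  have hMpos : 0 < M := by linarith
  have hg0 : 0 ≤ 1 - γ := by linarith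
  have hgexp : 1 - γ ≤ Real.exp (-γ) := Real.one_sub_le_exp_neg _
  have hpow : (1 - γ) ^ t ≤ Real.exp (-γ) ^ t := pow_le_pow_left₀ hg0 hgexp _
  have hpow2 : Real.exp (-γ) ^ t = Real.exp ((t : ℝ) * (-γ)) := by
    rw [← Real.exp_nat_mul]
  have ht2 : Real.log M + 2 * Real.log (1 / ε) ≤ (t : ℝ) * γ := by
    have h1 : γ * ((1 / γ) * (Real.log M + 2 * Real.log (1 / ε))) ≤ γ * (t : ℝ) :=
      mul_le_mul_of_nonneg_left ht hγ0.le
    have h2 : γ * ((1 / γ) * (Real.log M + 2 * Real.log (1 / ε)))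
        = Real.log M + 2 * Real.log (1 / ε) := by
      field_simp
    rw [h2] at h1
    linarith
  have hlogε : Real.log (1 / ε) = - Real.log ε := by
    rw [one_div, Real.log_inv]
  have hmain : M * (1 - γ) ^ t ≤ ε ^ 2 := by
    have hq0 : 0 ≤ (1 - γ) ^ t := pow_nonneg hg0 _
    calc M * (1 - γ) ^ t
        ≤ M * Real.exp ((t : ℝ) * (-γ)) := by
          apply mul_le_mul_of_nonneg_left _ hMpos.le
          rw [← hpow2]; exact hpow
      _ = Real.exp (Real.log M) * Real.exp ((t : ℝ) * (-γ)) := by rw [Real.exp_log hMpos]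
      _ = Real.exp (Real.log M + (t : ℝ) * (-γ)) := by rw [Real.exp_add]
      _ ≤ Real.exp (2 * Real.log ε) := by
          apply Real.exp_le_exp.mpr
          rw [hlogε] at ht2
          linarith
      _ = ε ^ 2 := by
          have : (2 : ℝ) * Real.log ε = Real.log ε + Real.log ε := by ring
          rw [this, Real.exp_add, Real.exp_log hε]; ring
  have hs : Real.sqrt (M * (1 - γ) ^ t) ≤ ε := by
    calc Real.sqrt (M * (1 - γ) ^ t) ≤ Real.sqrt (ε ^ 2) := Real.sqrt_le_sqrt hmain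
      _ = ε := Real.sqrt_sq hε.le
  linarith

/-- mixing time bound for all numbers of rows and columns and all margins -/
theorem hb_mixing (m n : ℕ) (hm : 2 ≤ m) (hn : 2 ≤ n) (r : Fin m → ℕ) (c : Fin n → ℕ)
    (X : Tab r c) (ε : ℝ) (hε : 0 < ε) (t : ℕ)
    (ht : ((m.choose 2 : ℝ) * (n.choose 2 : ℝ)) *
      ((m : ℝ) * (n : ℝ) * Real.log ((∑ i, r i : ℕ) + 1) + 2 * Real.log (1 / ε)) ≤ t) :
    tv ((hbKernel r c ^ t) X) (unif r c) ≤ ε := by
  have hι : 2 ≤ Fintype.card (Fin m) := by simpa using hm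
  have hκ : 2 ≤ Fintype.card (Fin n) := by simpa using hn
  have h1 := hb_tv (r := r) (c := c) hι hκ X t
  have hnb : 1 ≤ nblk (Fin m) (Fin n) := nblk_pos hι hκ
  have hnbpos : 0 < nblk (Fin m) (Fin n) := by linarith
  have hnbeq : nblk (Fin m) (Fin n) = (m.choose 2 : ℝ) * (n.choose 2 : ℝ) := by
    simp [nblk]
  set N : ℕ := ∑ i, r i with hN
  set M : ℝ := ((N : ℝ) + 1) ^ (m * n) with hMdef
  have hbase : (1 : ℝ) ≤ (N : ℝ) + 1 := by
    have : (0 : ℝ) ≤ (N : ℝ) := Nat.cast_nonneg _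
    linarith
  have hM1 : 1 ≤ M := one_le_pow₀ hbase
  have hcard : (Fintype.card (Tab r c) : ℝ) ≤ M := by
    have h := card_tab_le r c
    have h2 : (Fintype.card (Tab r c) : ℝ)
        ≤ (((∑ i, r i + 1) ^ (Fintype.card (Fin m) * Fintype.card (Fin n)) : ℕ) : ℝ) := by
      exact_mod_cast h
    simpa [hMdef, hN] using h2
  set γ : ℝ := 1 / nblk (Fin m) (Fin n) with hγ
  have hγ0 : 0 < γ := by rw [hγ]; positivity
  have hγ1 : γ ≤ 1 := by
    rw [hγ, div_le_one hnbpos]; exact hnb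
  have hlogM : Real.log M = (m : ℝ) * (n : ℝ) * Real.log ((N : ℝ) + 1) := by
    rw [hMdef, Real.log_pow]; push_cast; ring
  have ht' : (1 / γ) * (Real.log M + 2 * Real.log (1 / ε)) ≤ t := by
    have hinv : 1 / γ = (m.choose 2 : ℝ) * (n.choose 2 : ℝ) := by
      rw [hγ, one_div_one_div, hnbeq]
    rw [hinv, hlogM]
    exact ht
  have h2 := final_numeric M γ ε t hM1 hγ0 hγ1 hε ht'
  have hq0 : 0 ≤ (1 - γ) ^ t := pow_nonneg (by linarith) _
  have h3 : Real.sqrt ((Fintype.card (Tab r c) : ℝ) * (1 - γ) ^ t)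
      ≤ Real.sqrt (M * (1 - γ) ^ t) :=
    Real.sqrt_le_sqrt (mul_le_mul_of_nonneg_right hcard hq0)
  calc tv ((hbKernel r c ^ t) X) (unif r c)
      ≤ (1 / 2 : ℝ) * Real.sqrt ((Fintype.card (Tab r c) : ℝ) * (1 - γ) ^ t) := h1
    _ ≤ (1 / 2 : ℝ) * Real.sqrt (M * (1 - γ) ^ t) := by linarith
    _ ≤ ε := h2

end Vale.Agent.P328.HB
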