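import Vale.Agent.P335.AvgBasic
import Vale.Agent.P335.TablesStep1

/-!
# P328: the hexagon model (first row of a 2 x 3 table)
`hexS s ρ` = triples `x` with `x a ≤ s a` and sum `ρ`; the three keys are the coordinates.
-/

namespace Vale.Agent.P328.HB

open Finset Vale.Agent.P335

/-- the lattice hexagon -/
def hexS (s : Fin 3 → ℕ) (ρ : ℕ) : Finset (Fin 3 → ℕ) :=
  (Fintype.piFinset fun a => range (s a + 1)).filter (fun x => ∑ a, x a = ρ)

/-- the coordinate key -/
def coordKey (a : Fin 3) (x : Fin 3 → ℕ) : ℕ := x a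

/-- `y = x + e_a - e_a'` -/
def HexAdj (x y : Fin 3 → ℕ) : Prop :=
  ∃ a a' : Fin 3, a ≠ a' ∧ y a = x a + 1 ∧ y a' + 1 = x a' ∧ ∀ a'', a'' ≠ a → a'' ≠ a' → y a'' = x a''

private theorem stair_tele (h : ℕ → ℝ) (c : ℝ) (m : ℕ) :
    ∑ i ∈ range m, ((c - i) * h i + ((i : ℝ) + 1) * h (i + 1))
      = c * ∑ i ∈ range m, h i + m * h m := by
  induction m with
  | zero => simp
  | succ k ih =>
    rw [Finset.sum_range_succ, ih, Finset.sum_range_succ]
    push_cast
    ring

/-- staircase coupling of the uniform laws on `L` and `L + 1` points -/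
theorem stair (L : ℕ) (hL : 0 < L) (g h : ℕ → ℝ) (D : ℝ)
    (h1 : ∀ i < L, |g i - h i| ≤ D) (h2 : ∀ i < L, |g i - h (i + 1)| ≤ D) :
    |(∑ i ∈ range L, g i) / (L : ℝ) - (∑ i ∈ range (L + 1), h i) / ((L : ℝ) + 1)| ≤ D := by
  have hLr : (0 : ℝ) < L := by exact_mod_cast hL
  have hL1 : (0 : ℝ) < (L : ℝ) + 1 := by linarith
  have key : ((L : ℝ) + 1) * ∑ i ∈ range L, g i - L * ∑ i ∈ range (L + 1), h i
      = ∑ i ∈ range L, (((L : ℝ) - i) * (g i - h i) + ((i : ℝ) + 1) * (g i - h (i + 1))) := by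
    have e1 : ∑ i ∈ range L, (((L : ℝ) - i) * (g i - h i) + ((i : ℝ) + 1) * (g i - h (i + 1)))
        = ∑ i ∈ range L, (((L : ℝ) + 1) * g i)
          - ∑ i ∈ range L, (((L : ℝ) - i) * h i + ((i : ℝ) + 1) * h (i + 1)) := by
      rw [← Finset.sum_sub_distrib]
      apply Finset.sum_congr rfl
      intro i _
      ring
    rw [e1, stair_tele, Finset.sum_range_succ, ← Finset.mul_sum]
    ring
  have bound : |∑ i ∈ range L, (((L : ℝ) - i) * (g i - h i) + ((i : ℝ) + 1) * (g i - h (i + 1)))|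
      ≤ ∑ i ∈ range L, (((L : ℝ) + 1) * D) := by
    refine (Finset.abs_sum_le_sum_abs _ _).trans (Finset.sum_le_sum ?_)
    intro i hi
    have hi' : i < L := Finset.mem_range.mp hi
    have hiL : (0 : ℝ) ≤ (L : ℝ) - i := by
      have : (i : ℝ) ≤ L := by exact_mod_cast hi'.le
      linarith
    have hi1 : (0 : ℝ) ≤ (i : ℝ) + 1 := by positivity
    calc |((L : ℝ) - i) * (g i - h i) + ((i : ℝ) + 1) * (g i - h (i + 1))|
        ≤ |((L : ℝ) - i) * (g i - h i)| + |((i : ℝ) + 1) * (g i - h (i + 1))| := abs_add_le _ _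
      _ = ((L : ℝ) - i) * |g i - h i| + ((i : ℝ) + 1) * |g i - h (i + 1)| := by
          rw [abs_mul, abs_mul, abs_of_nonneg hiL, abs_of_nonneg hi1]
      _ ≤ ((L : ℝ) - i) * D + ((i : ℝ) + 1) * D := by
          gcongr
          · exact h1 i hi'
          · exact h2 i hi'
      _ = ((L : ℝ) + 1) * D := by ring
  have e2 : (∑ i ∈ range L, g i) / (L : ℝ) - (∑ i ∈ range (L + 1), h i) / ((L : ℝ) + 1)
      = (((L : ℝ) + 1) * ∑ i ∈ range L, g i - L * ∑ i ∈ range (L + 1), h i) / (L * ((L : ℝ) + 1)) := by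
    field_simp
  rw [e2, key, abs_div, abs_of_pos (mul_pos hLr hL1), div_le_iff₀ (mul_pos hLr hL1)]
  refine bound.trans ?_
  rw [Finset.sum_const, Finset.card_range, nsmul_eq_mul]
  apply le_of_eq
  ring

private theorem avg_Icc (lo hi : ℕ) (G : ℕ → ℝ) :
    (∑ t ∈ Icc lo hi, G t) = ∑ i ∈ range (hi + 1 - lo), G (lo + i) := by
  have : Icc lo hi = Ico lo (hi + 1) := by
    ext t; simp
  rw [this, Finset.sum_Ico_eq_sum_range]

private theorem same_len (n : ℕ) (hn : 0 < n) (g h : ℕ → ℝ) (D : ℝ)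
    (h1 : ∀ i < n, |g i - h i| ≤ D) :
    |(∑ i ∈ range n, g i) / (n : ℝ) - (∑ i ∈ range n, h i) / (n : ℝ)| ≤ D := by
  have hnr : (0 : ℝ) < n := by exact_mod_cast hn
  rw [← sub_div, ← Finset.sum_sub_distrib, abs_div, abs_of_pos hnr, div_le_iff₀ hnr]
  refine (Finset.abs_sum_le_sum_abs _ _).trans ?_
  calc ∑ i ∈ range n, |g i - h i| ≤ ∑ i ∈ range n, D :=
        Finset.sum_le_sum (fun i hi => h1 i (Finset.mem_range.mp hi))
    _ = D * n := by rw [Finset.sum_const, Finset.card_range, nsmul_eq_mul]; ring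

/-- averages over two integer intervals whose end points differ by at most one step down -/
theorem interval_lip (lo hi lo' hi' : ℕ) (hne : lo ≤ hi) (hne' : lo' ≤ hi')
    (hlo : lo' = lo ∨ lo' + 1 = lo) (hhi : hi' = hi ∨ hi' + 1 = hi) (G H : ℕ → ℝ) (D : ℝ)
    (h1 : ∀ t, lo ≤ t → t ≤ hi → lo' ≤ t → t ≤ hi' → |G t - H t| ≤ D)
    (h2 : ∀ t, lo ≤ t + 1 → t + 1 ≤ hi → lo' ≤ t → t ≤ hi' → |G (t + 1) - H t| ≤ D) :
    |(∑ t ∈ Icc lo hi, G t) / ((Icc lo hi).card : ℝ)
      - (∑ t ∈ Icc lo' hi', H t) / ((Icc lo' hi').card : ℝ)| ≤ D := by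
  rw [avg_Icc, avg_Icc, Nat.card_Icc, Nat.card_Icc]
  rcases hlo with rfl | hlo <;> rcases hhi with rfl | hhi
  · exact same_len _ (by omega) _ _ D (fun i hi => h1 _ (by omega) (by omega) (by omega) (by omega))
  · -- lo' = lo, hi' + 1 = hi
    subst hhi
    have hs := stair (hi' + 1 - lo') (by omega) (fun i => H (lo' + i)) (fun i => G (lo' + i)) D
      (fun i hi => by
        rw [abs_sub_comm]
        exact h1 _ (by omega) (by omega) (by omega) (by omega))
      (fun i hi => by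
        rw [abs_sub_comm]
        exact h2 (lo' + i) (by omega) (by omega) (by omega) (by omega))
    rw [abs_sub_comm]
    have e : hi' + 1 + 1 - lo' = (hi' + 1 - lo') + 1 := by omega
    rw [e]
    push_cast
    exact hs
  · -- lo' + 1 = lo, hi' = hi
    subst hlo
    have hs := stair (hi' - lo') (by omega) (fun i => G (lo' + 1 + i)) (fun i => H (lo' + i)) D
      (fun i hi => by
        have := h2 (lo' + i) (by omega) (by omega) (by omega) (by omega)
        have e : lo' + 1 + i = lo' + i + 1 := by omega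
        simpa [e] using this)
      (fun i hi => by
        have := h1 (lo' + 1 + i) (by omega) (by omega) (by omega) (by omega)
        have e : lo' + (i + 1) = lo' + 1 + i := by omega
        simpa [e] using this)
    have e : hi' + 1 - lo' = (hi' - lo') + 1 := by omega
    have e' : hi' + 1 - (lo' + 1) = hi' - lo' := by omega
    rw [e, e']
    push_cast
    exact hs
  · subst hlo
    subst hhi
    have e : hi' + 1 + 1 - (lo' + 1) = hi' + 1 - lo' := by omega
    rw [e]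
    exact same_len _ (by omega) _ _ D (fun i hi => by
      have := h2 (lo' + i) (by omega) (by omega) (by omega) (by omega)
      have e : lo' + 1 + i = lo' + i + 1 := by omega
      simpa [e] using this)

theorem fin3_cases (a a' a'' : Fin 3) (h1 : a ≠ a') (h2 : a ≠ a'') (h3 : a' ≠ a'') :
    ∀ e : Fin 3, e = a ∨ e = a' ∨ e = a'' := by
  revert a a' a''; decide

theorem fin3_others (a : Fin 3) : ∃ a' a'' : Fin 3, a ≠ a' ∧ a ≠ a'' ∧ a' ≠ a'' := by
  revert a; decide

theorem fin3_third (a a' : Fin 3) (h : a ≠ a') : ∃ a'' : Fin 3, a ≠ a'' ∧ a' ≠ a'' := by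
  revert a a'; decide

theorem sum_fin3 {M : Type*} [AddCommMonoid M] (f : Fin 3 → M) (a a' a'' : Fin 3) (h1 : a ≠ a')
    (h2 : a ≠ a'') (h3 : a' ≠ a'') : ∑ e, f e = f a + f a' + f a'' := by
  have hu : (univ : Finset (Fin 3)) = {a, a', a''} := by
    revert a a' a''; decide
  rw [hu, Finset.sum_insert, Finset.sum_insert, Finset.sum_singleton, add_assoc]
  · simpa using h3
  · simp [h1, h2]

theorem mem_hexS (s : Fin 3 → ℕ) (ρ : ℕ) (x : Fin 3 → ℕ) :
    x ∈ hexS s ρ ↔ (∀ e, x e ≤ s e) ∧ ∑ e, x e = ρ := by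
  simp [hexS, Fintype.mem_piFinset]

/-- the class of `x` for the coordinate `a`, parametrised by the coordinate `a'` -/
theorem hex_cls_param (s : Fin 3 → ℕ) (ρ : ℕ) (a a' a'' : Fin 3) (h1 : a ≠ a') (h2 : a ≠ a'')
    (h3 : a' ≠ a'') (x : Fin 3 → ℕ) (hx : x ∈ hexS s ρ) (g : (Fin 3 → ℕ) → ℝ) :
    avgOn (hexS s ρ) (coordKey a) g x =
      (∑ t ∈ Icc (ρ - x a - s a'') (min (s a') (ρ - x a)),
        g (fun e => if e = a then x a else if e = a' then t else ρ - x a - t))
      / ((Icc (ρ - x a - s a'') (min (s a') (ρ - x a))).card : ℝ) ∧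
    ρ - x a - s a'' ≤ min (s a') (ρ - x a) ∧
    ∀ t ∈ Icc (ρ - x a - s a'') (min (s a') (ρ - x a)),
      (fun e => if e = a then x a else if e = a' then t else ρ - x a - t) ∈ hexS s ρ := by
  have hx' := (mem_hexS s ρ x).1 hx
  have hxs := hx'.2
  rw [sum_fin3 x a a' a'' h1 h2 h3] at hxs
  have hxa' := hx'.1 a'
  have hxa'' := hx'.1 a''
  have hxa := hx'.1 a
  set pt : ℕ → Fin 3 → ℕ := fun t e => if e = a then x a else if e = a' then t else ρ - x a - t
    with hpt
  have pa : ∀ t, pt t a = x a := fun t => by simp [hpt]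
  have pa' : ∀ t, pt t a' = t := fun t => by simp [hpt, h1.symm]
  have pa'' : ∀ t, pt t a'' = ρ - x a - t := fun t => by simp [hpt, h2.symm, h3.symm]
  have hmem : ∀ t ∈ Icc (ρ - x a - s a'') (min (s a') (ρ - x a)), pt t ∈ hexS s ρ := by
    intro t ht
    rw [Finset.mem_Icc, le_min_iff] at ht
    rw [mem_hexS, sum_fin3 (pt t) a a' a'' h1 h2 h3, pa, pa', pa'']
    refine ⟨fun e => ?_, by omega⟩
    rcases fin3_cases a a' a'' h1 h2 h3 e with rfl | rfl | rfl
    · rw [pa]; exact hxa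
    · rw [pa']; exact ht.2.1
    · rw [pa'']; omega
  have hfw : ∀ z ∈ clsOn (hexS s ρ) (coordKey a) x,
      z a' ∈ Icc (ρ - x a - s a'') (min (s a') (ρ - x a)) ∧ pt (z a') = z := by
    intro z hz
    rw [mem_clsOn] at hz
    have hz' := (mem_hexS s ρ z).1 hz.1
    have hzs := hz'.2
    rw [sum_fin3 z a a' a'' h1 h2 h3] at hzs
    have hza : z a = x a := hz.2
    have hza' := hz'.1 a'
    have hza'' := hz'.1 a''
    refine ⟨?_, ?_⟩
    · rw [Finset.mem_Icc, le_min_iff]; omega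
    · funext e
      rcases fin3_cases a a' a'' h1 h2 h3 e with rfl | rfl | rfl
      · rw [pa, hza]
      · rw [pa']
      · rw [pa'']; omega
  have hbw : ∀ t ∈ Icc (ρ - x a - s a'') (min (s a') (ρ - x a)),
      pt t ∈ clsOn (hexS s ρ) (coordKey a) x := by
    intro t ht
    rw [mem_clsOn]
    exact ⟨hmem t ht, pa t⟩
  refine ⟨?_, ?_, hmem⟩
  · unfold avgOn
    have e1 : ∑ z ∈ clsOn (hexS s ρ) (coordKey a) x, g z
        = ∑ t ∈ Icc (ρ - x a - s a'') (min (s a') (ρ - x a)), g (pt t) := by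
      apply Finset.sum_nbij' (fun z => z a') pt (fun z hz => (hfw z hz).1) hbw
        (fun z hz => (hfw z hz).2) (fun t _ => pa' t)
      intro z hz
      rw [(hfw z hz).2]
    have e2 : (clsOn (hexS s ρ) (coordKey a) x).card
        = (Icc (ρ - x a - s a'') (min (s a') (ρ - x a))).card := by
      apply Finset.card_nbij' (fun z => z a') pt (fun z hz => (hfw z hz).1) hbw
        (fun z hz => (hfw z hz).2) (fun t _ => pa' t)
    rw [e1, e2]
  · rw [le_min_iff]; omega

theorem avgOn_eq_of_key_eq {X K : Type*} (S : Finset X) (κ : X → K) (g : X → ℝ) {x y : X}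
    (h : κ x = κ y) : avgOn S κ g x = avgOn S κ g y := by
  unfold avgOn clsOn
  rw [h]

theorem avgOn_eq_self {X K : Type*} (S : Finset X) (κ : X → K) (g : X → ℝ) (x : X) (hx : x ∈ S)
    (h : ∀ y ∈ clsOn S κ x, g y = g x) : avgOn S κ g x = g x := by
  unfold avgOn
  rw [Finset.sum_congr rfl h, Finset.sum_const, nsmul_eq_mul]
  have hc : ((clsOn S κ x).card : ℝ) ≠ 0 := by
    have : 0 < (clsOn S κ x).card := Finset.card_pos.2 ⟨x, (mem_clsOn S κ x x).2 ⟨hx, rfl⟩⟩
    positivity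
  field_simp

theorem HexAdj.symm {x y : Fin 3 → ℕ} (h : HexAdj x y) : HexAdj y x := by
  obtain ⟨a, a', hne, h1, h2, h3⟩ := h
  exact ⟨a', a, hne.symm, h2.symm, h1.symm, fun e he he' => (h3 e he' he).symm⟩

/-- the case where the key is the coordinate which goes up -/
theorem hex_avg_lip_up (s : Fin 3 → ℕ) (ρ : ℕ) (g : (Fin 3 → ℕ) → ℝ) (D : ℝ)
    (hlip : ∀ x ∈ hexS s ρ, ∀ y ∈ hexS s ρ, HexAdj x y → |g x - g y| ≤ D)
    (x y : Fin 3 → ℕ) (hx : x ∈ hexS s ρ) (hy : y ∈ hexS s ρ) (a a' : Fin 3) (hne : a ≠ a')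
    (h1 : y a = x a + 1) :
    |avgOn (hexS s ρ) (coordKey a) g x - avgOn (hexS s ρ) (coordKey a) g y| ≤ D := by
  obtain ⟨a'', h2, h3⟩ := fin3_third a a' hne
  obtain ⟨ex, nx, mx⟩ := hex_cls_param s ρ a a' a'' hne h2 h3 x hx g
  obtain ⟨ey, ny, my⟩ := hex_cls_param s ρ a a' a'' hne h2 h3 y hy g
  have hy' := (mem_hexS s ρ y).1 hy
  have hys := hy'.2
  rw [sum_fin3 y a a' a'' hne h2 h3] at hys
  rw [ex, ey]
  apply interval_lip _ _ _ _ nx ny
  · rw [h1]; omega
  · rw [h1]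
    rcases le_or_gt (s a') (ρ - (x a + 1)) with hh | hh
    · left
      rw [min_eq_left hh, min_eq_left (by omega)]
    · right
      rw [min_eq_right hh.le, min_eq_right (by omega)]
      omega
  · intro t t1 t2 t3 t4
    apply hlip _ (mx t (Finset.mem_Icc.2 ⟨t1, t2⟩)) _ (my t (Finset.mem_Icc.2 ⟨t3, t4⟩))
    rw [le_min_iff] at t4
    refine ⟨a, a'', h2, ?_, ?_, ?_⟩
    · simp [h1]
    · simp only [h2.symm, h3.symm, if_false, h1]
      omega
    · intro e he he'
      rcases fin3_cases a a' a'' hne h2 h3 e with rfl | rfl | rfl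
      · exact absurd rfl he
      · simp [hne.symm]
      · exact absurd rfl he'
  · intro t t1 t2 t3 t4
    apply hlip _ (mx (t + 1) (Finset.mem_Icc.2 ⟨t1, t2⟩)) _ (my t (Finset.mem_Icc.2 ⟨t3, t4⟩))
    rw [le_min_iff] at t4
    refine ⟨a, a', hne, ?_, ?_, ?_⟩
    · simp [h1]
    · simp [hne.symm]
    · intro e he he'
      rcases fin3_cases a a' a'' hne h2 h3 e with rfl | rfl | rfl
      · exact absurd rfl he
      · exact absurd rfl he'
      · simp only [h2.symm, h3.symm, if_false, h1]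
        omega

/-- each of the three averaging operators is 1-Lipschitz for the adjacency -/
theorem hex_avg_lip (s : Fin 3 → ℕ) (ρ : ℕ) (g : (Fin 3 → ℕ) → ℝ) (D : ℝ) (hD : 0 ≤ D)
    (hlip : ∀ x ∈ hexS s ρ, ∀ y ∈ hexS s ρ, HexAdj x y → |g x - g y| ≤ D)
    (x y : Fin 3 → ℕ) (hx : x ∈ hexS s ρ) (hy : y ∈ hexS s ρ) (hxy : HexAdj x y) (a : Fin 3) :
    |avgOn (hexS s ρ) (coordKey a) g x - avgOn (hexS s ρ) (coordKey a) g y| ≤ D := by
  obtain ⟨a1, a2, hne, h1, h2, h3⟩ := hxy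
  by_cases e1 : a = a1
  · subst e1
    exact hex_avg_lip_up s ρ g D hlip x y hx hy a a2 hne h1
  · by_cases e2 : a = a2
    · subst e2
      rw [abs_sub_comm]
      exact hex_avg_lip_up s ρ g D hlip y x hy hx a a1 hne.symm h2.symm
    · rw [avgOn_eq_of_key_eq (hexS s ρ) (coordKey a) g (x := x) (y := y) (h3 a e1 e2).symm,
        sub_self, abs_zero]
      exact hD

theorem hex_conn_aux (s : Fin 3 → ℕ) (ρ : ℕ) (g : (Fin 3 → ℕ) → ℝ)
    (hadj : ∀ x ∈ hexS s ρ, ∀ y ∈ hexS s ρ, HexAdj x y → g x = g y)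
    (a a' a'' : Fin 3) (h1 : a ≠ a') (h2 : a ≠ a'') (h3 : a' ≠ a'') (n : ℕ) :
    ∀ x y : Fin 3 → ℕ, x ∈ hexS s ρ → y ∈ hexS s ρ → x a = y a → y a' = x a' + n → g x = g y := by
  induction n with
  | zero =>
    intro x y hx hy hxy hn
    have hx' := (mem_hexS s ρ x).1 hx
    have hy' := (mem_hexS s ρ y).1 hy
    have hxs := hx'.2
    have hys := hy'.2
    rw [sum_fin3 x a a' a'' h1 h2 h3] at hxs
    rw [sum_fin3 y a a' a'' h1 h2 h3] at hys
    have : x = y := by
      funext e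
      rcases fin3_cases a a' a'' h1 h2 h3 e with rfl | rfl | rfl
      · exact hxy
      · omega
      · omega
    rw [this]
  | succ n ih =>
    intro x y hx hy hxy hn
    have hx' := (mem_hexS s ρ x).1 hx
    have hy' := (mem_hexS s ρ y).1 hy
    have hxs := hx'.2
    have hys := hy'.2
    rw [sum_fin3 x a a' a'' h1 h2 h3] at hxs
    rw [sum_fin3 y a a' a'' h1 h2 h3] at hys
    set z : Fin 3 → ℕ := fun e => if e = a then x a else if e = a' then x a' + 1 else x a'' - 1
      with hz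
    have za : z a = x a := by simp [hz]
    have za' : z a' = x a' + 1 := by simp [hz, h1.symm]
    have za'' : z a'' = x a'' - 1 := by simp [hz, h2.symm, h3.symm]
    have hya' := hy'.1 a'
    have hxa'' := hx'.1 a''
    have hzm : z ∈ hexS s ρ := by
      rw [mem_hexS, sum_fin3 z a a' a'' h1 h2 h3, za, za', za'']
      refine ⟨fun e => ?_, by omega⟩
      rcases fin3_cases a a' a'' h1 h2 h3 e with rfl | rfl | rfl
      · rw [za]; exact hx'.1 _
      · rw [za']; omega
      · rw [za'']; omega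
    have hxz : HexAdj x z := by
      refine ⟨a', a'', h3, za', by rw [za'']; omega, ?_⟩
      intro e he he'
      rcases fin3_cases a a' a'' h1 h2 h3 e with rfl | rfl | rfl
      · exact za
      · exact absurd rfl he
      · exact absurd rfl he'
    rw [hadj x hx z hzm hxz]
    exact ih z y hzm hy (by rw [za, hxy]) (by rw [za']; omega)

/-- two points of the hexagon with the same coordinate `a` are joined by adjacent steps:
a function which is constant along adjacent pairs is constant on the classes -/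
theorem hex_conn (s : Fin 3 → ℕ) (ρ : ℕ) (g : (Fin 3 → ℕ) → ℝ)
    (hadj : ∀ x ∈ hexS s ρ, ∀ y ∈ hexS s ρ, HexAdj x y → g x = g y)
    (a : Fin 3) (x y : Fin 3 → ℕ) (hx : x ∈ hexS s ρ) (hy : y ∈ hexS s ρ) (hxy : x a = y a) :
    g x = g y := by
  obtain ⟨a', a'', h1, h2, h3⟩ := fin3_others a
  rcases le_total (x a') (y a') with h | h
  · exact hex_conn_aux s ρ g hadj a a' a'' h1 h2 h3 (y a' - x a') x y hx hy hxy (by omega)
  · exact (hex_conn_aux s ρ g hadj a a' a'' h1 h2 h3 (x a' - y a') y x hy hx hxy.symm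
      (by omega)).symm

/-- the hexagon lemma: an eigenfunction with eigenvalue larger than two is fixed -/
theorem hex_model_eigen (s : Fin 3 → ℕ) (ρ : ℕ) (g : (Fin 3 → ℕ) → ℝ) (lam : ℝ) (hlam : 2 < lam)
    (heq : ∀ x ∈ hexS s ρ, ∑ a, avgOn (hexS s ρ) (coordKey a) g x = lam * g x) :
    ∀ a, ∀ x ∈ hexS s ρ, avgOn (hexS s ρ) (coordKey a) g x = g x := by
  have hadj : ∀ x ∈ hexS s ρ, ∀ y ∈ hexS s ρ, HexAdj x y → g x = g y := by
    apply lipschitz_zero (hexS s ρ) HexAdj g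
      (fun x => ∑ a, avgOn (hexS s ρ) (coordKey a) g x) lam hlam heq
    intro D hD hlip x hx y hy hxy
    have hl := hex_avg_lip s ρ g D hD hlip x y hx hy hxy
    obtain ⟨a1, a2, hne, h1, h2, h3⟩ := hxy
    obtain ⟨a3, h13, h23⟩ := fin3_third a1 a2 hne
    rw [sum_fin3 _ a1 a2 a3 hne h13 h23, sum_fin3 _ a1 a2 a3 hne h13 h23,
      avgOn_eq_of_key_eq (hexS s ρ) (coordKey a3) g (x := x) (y := y)
        (h3 a3 h13.symm h23.symm).symm]
    have l1 := abs_le.1 (hl a1)
    have l2 := abs_le.1 (hl a2)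
    rw [abs_le]
    constructor <;> linarith [l1.1, l1.2, l2.1, l2.2]
  intro a x hx
  apply avgOn_eq_self _ _ _ _ hx
  intro y hy
  rw [mem_clsOn] at hy
  exact hex_conn s ρ g hadj a y x hy.1 hx hy.2

end Vale.Agent.P328.HB
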