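import Vale.Agent.P328.HB.Keys
import Vale.Agent.P328.HB.Conn
import Vale.Agent.P328.HB.HexModel
import Vale.Agent.P328.HB.AbsCaputo
import Vale.Agent.P335.AvgTransfer

/-!
# P328: two rows, three columns: transfer of the hexagon lemma to tables
-/

namespace Vale.Agent.P328.HB

open Finset Vale.Agent.P335

set_option linter.unusedSectionVars false

variable {ι κ : Type*} [Fintype ι] [Fintype κ] [DecidableEq ι] [DecidableEq κ]
variable {r : ι → ℕ} {c : κ → ℕ}

/-- the entries of row `i` in the three columns `t 0, t 1, t 2` -/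
def hexOf (i : ι) (t : Fin 3 → κ) (X : Tab r c) : Fin 3 → ℕ := fun a => X.1 i (t a)

/-- column sums of the block -/
def hexCap (i i' : ι) (t : Fin 3 → κ) (X : Tab r c) : Fin 3 → ℕ :=
  fun a => X.1 i (t a) + X.1 i' (t a)

/-- sum of row `i` inside the block -/
def hexRow (i : ι) (t : Fin 3 → κ) (X : Tab r c) : ℕ := ∑ a, X.1 i (t a)

/-- splitting a sum over the rows -/
private theorem sum_two_rows {i i' : ι} (hi : i ≠ i') (f : ι → ℕ) :
    ∑ a, f a = f i + f i' + ∑ a ∈ (univ.erase i).erase i', f a := by
  rw [← Finset.add_sum_erase univ f (Finset.mem_univ i),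
    ← Finset.add_sum_erase (univ.erase i) f
      (Finset.mem_erase.2 ⟨hi.symm, Finset.mem_univ i'⟩), add_assoc]

/-- membership in the class, cell by cell -/
private theorem mem_cls_block (B : Finset (ι × κ)) (X₀ X : Tab r c) :
    X ∈ cls (offKey B) X₀ ↔ ∀ a b, (a, b) ∉ B → X.1 a b = X₀.1 a b := by
  rw [mem_cls, offKey_eq_iff]

/-- inside a class the column sums of the two rows are frozen -/
private theorem col_block {i i' : ι} (hi : i ≠ i') (T : Finset κ) (X X₀ : Tab r c)
    (h : ∀ a b, (a, b) ∉ (({i, i'} : Finset ι) ×ˢ T) → X.1 a b = X₀.1 a b) (j : κ) :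
    X.1 i j + X.1 i' j = X₀.1 i j + X₀.1 i' j := by
  have h1 := X.2.2 j
  have h2 := X₀.2.2 j
  rw [sum_two_rows hi] at h1 h2
  have h3 : ∑ a ∈ (univ.erase i).erase i', X.1 a j = ∑ a ∈ (univ.erase i).erase i', X₀.1 a j := by
    refine Finset.sum_congr rfl fun a ha => h a j ?_
    rw [Finset.mem_erase, Finset.mem_erase] at ha
    simp only [Finset.mem_product, Finset.mem_insert, Finset.mem_singleton, not_and]
    intro hc
    rcases hc with hc | hc
    · exact absurd hc ha.2.1
    · exact absurd hc ha.1
  omega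

/-- inside a class the block sum of a row is frozen -/
private theorem row_block (b : Finset ι) (t : Fin 3 → κ) (ht : Function.Injective t)
    (X X₀ : Tab r c)
    (h : ∀ a b', (a, b') ∉ (b ×ˢ (univ.image t)) → X.1 a b' = X₀.1 a b') (i : ι) :
    ∑ a, X.1 i (t a) = ∑ a, X₀.1 i (t a) := by
  have h1 := X.2.1 i
  have h2 := X₀.2.1 i
  rw [← Finset.sum_add_sum_compl (univ.image t)] at h1 h2
  have h3 : ∑ j ∈ (univ.image t)ᶜ, X.1 i j = ∑ j ∈ (univ.image t)ᶜ, X₀.1 i j := by
    refine Finset.sum_congr rfl fun j hj => h i j ?_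
    rw [Finset.mem_compl] at hj
    simp only [Finset.mem_product, not_and]
    exact fun _ => hj
  rw [Finset.sum_image (fun x _ y _ hxy => ht hxy)] at h1 h2
  omega

theorem hex_maps {i i' : ι} (hi : i ≠ i') (t : Fin 3 → κ) (ht : Function.Injective t)
    (X₀ : Tab r c) :
    ∀ X ∈ cls (offKey (({i, i'} : Finset ι) ×ˢ (univ.image t))) X₀,
      hexOf i t X ∈ hexS (hexCap i i' t X₀) (hexRow i t X₀) := by
  intro X hX
  rw [mem_cls_block] at hX
  unfold hexS
  rw [Finset.mem_filter, Fintype.mem_piFinset]
  refine ⟨fun a => ?_, row_block _ t ht X X₀ hX i⟩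
  rw [Finset.mem_range]
  have := col_block hi _ X X₀ hX (t a)
  simp only [hexOf, hexCap]
  omega

theorem hex_inj {i i' : ι} (hi : i ≠ i') (t : Fin 3 → κ) (ht : Function.Injective t)
    (X₀ : Tab r c) :
    ∀ X ∈ cls (offKey (({i, i'} : Finset ι) ×ˢ (univ.image t))) X₀,
      ∀ X' ∈ cls (offKey (({i, i'} : Finset ι) ×ˢ (univ.image t))) X₀,
      hexOf i t X = hexOf i t X' → X = X' := by
  intro X hX X' hX' hh
  rw [mem_cls_block] at hX hX'
  apply Subtype.ext
  funext a b
  by_cases hab : (a, b) ∈ (({i, i'} : Finset ι) ×ˢ (univ.image t))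
  · simp only [Finset.mem_product, Finset.mem_insert, Finset.mem_singleton, Finset.mem_image,
      Finset.mem_univ, true_and] at hab
    obtain ⟨ha, e, rfl⟩ := hab
    have h0 : X.1 i (t e) = X'.1 i (t e) := congrFun hh e
    rcases ha with rfl | rfl
    · exact h0
    · have h1 := col_block hi _ X X₀ hX (t e)
      have h2 := col_block hi _ X' X₀ hX' (t e)
      omega
  · rw [hX a b hab, hX' a b hab]

theorem hex_surj {i i' : ι} (hi : i ≠ i') (t : Fin 3 → κ) (ht : Function.Injective t)
    (X₀ : Tab r c) :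
    ∀ x ∈ hexS (hexCap i i' t X₀) (hexRow i t X₀),
      ∃ X ∈ cls (offKey (({i, i'} : Finset ι) ×ˢ (univ.image t))) X₀, hexOf i t X = x := by
  classical
  intro x hx
  unfold hexS at hx
  rw [Finset.mem_filter, Fintype.mem_piFinset] at hx
  obtain ⟨hx1, hx2⟩ := hx
  -- the new row `i`
  set xx : κ → ℕ := fun b => if h : ∃ a, t a = b then x (Classical.choose h) else X₀.1 i b
    with hxx
  have hxt : ∀ a, xx (t a) = x a := by
    intro a
    have h : ∃ a', t a' = t a := ⟨a, rfl⟩
    simp only [hxx, dif_pos h]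
    rw [ht (Classical.choose_spec h)]
  have hxn : ∀ b, b ∉ univ.image t → xx b = X₀.1 i b := by
    intro b hb
    have h : ¬ ∃ a, t a = b := by
      rintro ⟨a, rfl⟩
      exact hb (Finset.mem_image_of_mem t (Finset.mem_univ a))
    simp only [hxx, dif_neg h]
  have hle : ∀ b, xx b ≤ X₀.1 i b + X₀.1 i' b := by
    intro b
    by_cases hb : b ∈ univ.image t
    · obtain ⟨a, -, rfl⟩ := Finset.mem_image.1 hb
      rw [hxt]
      have := hx1 a
      rw [Finset.mem_range] at this
      simp only [hexCap] at this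
      omega
    · rw [hxn b hb]; omega
  have hsum : ∑ b, xx b = r i := by
    rw [← X₀.2.1 i, ← Finset.sum_add_sum_compl (univ.image t) xx,
      ← Finset.sum_add_sum_compl (univ.image t) (fun j => X₀.1 i j),
      Finset.sum_image (fun x _ y _ hxy => ht hxy), Finset.sum_image (fun x _ y _ hxy => ht hxy)]
    congr 1
    · rw [Finset.sum_congr rfl fun a _ => hxt a, hx2]
      rfl
    · exact Finset.sum_congr rfl fun b hb => hxn b (Finset.mem_compl.1 hb)
  set Y : ι → κ → ℕ := fun a b =>
    if a = i then xx b else if a = i' then X₀.1 i b + X₀.1 i' b - xx b else X₀.1 a b with hY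
  have hYi : ∀ b, Y i b = xx b := fun b => by simp only [hY, if_true]
  have hYi' : ∀ b, Y i' b = X₀.1 i b + X₀.1 i' b - xx b := fun b => by
    simp only [hY, if_neg hi.symm, if_true]
  have hYo : ∀ a b, a ≠ i → a ≠ i' → Y a b = X₀.1 a b := fun a b h1 h2 => by
    simp only [hY, if_neg h1, if_neg h2]
  have hrow : ∀ a, ∑ j, Y a j = r a := by
    intro a
    by_cases h1 : a = i
    · subst h1
      rw [Finset.sum_congr rfl fun b _ => hYi b, hsum]
    · by_cases h2 : a = i'
      · subst h2
        rw [Finset.sum_congr rfl fun b _ => hYi' b]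
        have e1 : ∑ b, (X₀.1 i b + X₀.1 a b - xx b) + ∑ b, xx b
            = ∑ b, X₀.1 i b + ∑ b, X₀.1 a b := by
          rw [← Finset.sum_add_distrib, ← Finset.sum_add_distrib]
          exact Finset.sum_congr rfl fun b _ => Nat.sub_add_cancel (hle b)
        rw [hsum, X₀.2.1 i, X₀.2.1 a] at e1
        omega
      · rw [Finset.sum_congr rfl fun b _ => hYo a b h1 h2, X₀.2.1 a]
  have hcol : ∀ j, ∑ a, Y a j = c j := by
    intro j
    rw [← X₀.2.2 j, sum_two_rows hi, sum_two_rows hi (fun a => X₀.1 a j), hYi, hYi']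
    have h3 : ∑ a ∈ (univ.erase i).erase i', Y a j = ∑ a ∈ (univ.erase i).erase i', X₀.1 a j := by
      refine Finset.sum_congr rfl fun a ha => ?_
      rw [Finset.mem_erase, Finset.mem_erase] at ha
      exact hYo a j ha.2.1 ha.1
    rw [h3]
    have := hle j
    omega
  have hW : ∃ W : Tab r c, W.1 = Y := ⟨⟨Y, hrow, hcol⟩, rfl⟩
  obtain ⟨W, hWY⟩ := hW
  refine ⟨W, ?_, ?_⟩
  · rw [mem_cls_block]
    intro a b hab
    rw [hWY]
    simp only [Finset.mem_product, Finset.mem_insert, Finset.mem_singleton, not_and] at hab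
    show Y a b = X₀.1 a b
    by_cases h1 : a = i
    · subst h1
      rw [hYi, hxn b (hab (Or.inl rfl))]
    · by_cases h2 : a = i'
      · subst h2
        rw [hYi', hxn b (hab (Or.inr rfl))]
        omega
      · exact hYo a b h1 h2
  · funext a
    show W.1 i (t a) = x a
    rw [hWY, hYi, hxt]

theorem hex_compat {i i' : ι} (hi : i ≠ i') (t : Fin 3 → κ) (ht : Function.Injective t)
    (X₀ : Tab r c) (a : Fin 3) :
    ∀ X ∈ cls (offKey (({i, i'} : Finset ι) ×ˢ (univ.image t))) X₀,
      ∀ X' ∈ cls (offKey (({i, i'} : Finset ι) ×ˢ (univ.image t))) X₀,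
      (offKey (({i, i'} : Finset ι) ×ˢ ((univ.image t).erase (t a))) X
          = offKey (({i, i'} : Finset ι) ×ˢ ((univ.image t).erase (t a))) X'
        ↔ coordKey a (hexOf i t X) = coordKey a (hexOf i t X')) := by
  intro X hX X' hX'
  rw [mem_cls_block] at hX hX'
  rw [offKey_eq_iff]
  simp only [coordKey, hexOf]
  constructor
  · intro h
    refine h i (t a) ?_
    simp only [Finset.mem_product, Finset.mem_erase, not_and]
    intro _ h2
    exact absurd rfl h2
  · intro h u v huv
    by_cases hab : (u, v) ∈ (({i, i'} : Finset ι) ×ˢ (univ.image t))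
    · have hv : v = t a := by
        by_contra hne
        apply huv
        rw [Finset.mem_product] at hab ⊢
        exact ⟨hab.1, Finset.mem_erase.2 ⟨hne, hab.2⟩⟩
      subst hv
      rw [Finset.mem_product] at hab
      have hu := hab.1
      simp only [Finset.mem_insert, Finset.mem_singleton] at hu
      rcases hu with rfl | rfl
      · exact h
      · have h1 := col_block hi _ X X₀ hX (t a)
        have h2 := col_block hi _ X' X₀ hX' (t a)
        omega
    · rw [hX u v hab, hX' u v hab]

/-- eigenfunctions with eigenvalue larger than two (named rows and columns) -/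
theorem hex_tab_eigen_named {i i' : ι} (hi : i ≠ i') (t : Fin 3 → κ) (ht : Function.Injective t)
    (lam : ℝ) (f : Tab r c → ℝ) (hlam : 2 < lam)
    (heq : ∑ a, avg (offKey (({i, i'} : Finset ι) ×ˢ ((univ.image t).erase (t a)))) f = lam • f) :
    ∀ a, avg (offKey (({i, i'} : Finset ι) ×ˢ ((univ.image t).erase (t a)))) f = f := by
  intro a
  funext X₀
  obtain ⟨g, hg⟩ := exists_model_fun (offKey (({i, i'} : Finset ι) ×ˢ (univ.image t)))
    (hexOf i t) X₀ (hex_inj hi t ht X₀) f
  have htr : ∀ e : Fin 3, ∀ X ∈ cls (offKey (({i, i'} : Finset ι) ×ˢ (univ.image t))) X₀,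
      avg (offKey (({i, i'} : Finset ι) ×ˢ ((univ.image t).erase (t e)))) f X
        = avgOn (hexS (hexCap i i' t X₀) (hexRow i t X₀)) (coordKey e) g (hexOf i t X) := by
    intro e
    refine avg_transfer (offKey (({i, i'} : Finset ι) ×ˢ (univ.image t)))
      (offKey (({i, i'} : Finset ι) ×ˢ ((univ.image t).erase (t e)))) (hexOf i t)
      (hexS (hexCap i i' t X₀) (hexRow i t X₀)) (coordKey e) X₀ ?_ (hex_maps hi t ht X₀)
      (hex_inj hi t ht X₀) (hex_surj hi t ht X₀) (hex_compat hi t ht X₀ e) f g hg
    intro X X' hk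
    exact offKey_mono (Finset.product_subset_product (Finset.Subset.refl _)
      (Finset.erase_subset _ _)) hk
  have hmodel := hex_model_eigen (hexCap i i' t X₀) (hexRow i t X₀) g lam hlam (by
    intro x hx
    obtain ⟨X, hX, rfl⟩ := hex_surj hi t ht X₀ x hx
    rw [hg X hX, ← Finset.sum_congr rfl fun e _ => htr e X hX]
    have := congrFun heq X
    simpa [Finset.sum_apply] using this)
  have h0 := self_mem_cls (offKey (({i, i'} : Finset ι) ×ˢ (univ.image t))) X₀
  rw [htr a X₀ h0, hmodel a _ (hex_maps hi t ht X₀ X₀ h0), hg X₀ h0]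

/-- the two-element subsets of a three-element set are the complements of its points -/
theorem powersetCard_two_image (t : Fin 3 → κ) (ht : Function.Injective t) :
    (univ.image t).powersetCard 2 = univ.image (fun a => (univ.image t).erase (t a)) ∧
      Function.Injective (fun a => (univ.image t).erase (t a)) := by
  have hcard : (univ.image t).card = 3 := by
    rw [Finset.card_image_of_injective _ ht]; rfl
  constructor
  · ext s
    rw [Finset.mem_powersetCard, Finset.mem_image]
    constructor
    · rintro ⟨hs, hc⟩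
      have h1 : ((univ.image t) \ s).card = 1 := by
        rw [Finset.card_sdiff_of_subset hs, hcard, hc]
      obtain ⟨b, hb⟩ := Finset.card_eq_one.1 h1
      have hbm : b ∈ (univ.image t) \ s := by rw [hb]; exact Finset.mem_singleton_self b
      rw [Finset.mem_sdiff] at hbm
      obtain ⟨a, -, rfl⟩ := Finset.mem_image.1 hbm.1
      refine ⟨a, Finset.mem_univ a, ?_⟩
      ext y
      rw [Finset.mem_erase]
      constructor
      · rintro ⟨hy1, hy2⟩
        by_contra hys
        have : y ∈ (univ.image t) \ s := Finset.mem_sdiff.2 ⟨hy2, hys⟩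
        rw [hb, Finset.mem_singleton] at this
        exact hy1 this
      · intro hy
        refine ⟨?_, hs hy⟩
        rintro rfl
        exact hbm.2 hy
    · rintro ⟨a, -, rfl⟩
      refine ⟨Finset.erase_subset _ _, ?_⟩
      rw [Finset.card_erase_of_mem (Finset.mem_image_of_mem t (Finset.mem_univ a)), hcard]
  · intro a a' h
    simp only at h
    have h1 : t a ∉ (univ.image t).erase (t a') := by
      rw [← h]; exact Finset.notMem_erase _ _
    rw [Finset.mem_erase, not_and] at h1
    by_contra hne
    exact h1 (fun h2 => hne (ht h2)) (Finset.mem_image_of_mem t (Finset.mem_univ a))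

/-- the three-column lemma inside a pair of rows -/
theorem hex_tab (b : Finset ι) (hb : b.card = 2) (τ : Finset κ) (hτ : τ.card = 3)
    (F : Tab r c → ℝ) :
    ip F (Asum (fun β : Finset κ => offKey (r := r) (c := c) (b ×ˢ β)) τ F) ≤
      ip (Asum (fun β : Finset κ => offKey (r := r) (c := c) (b ×ˢ β)) τ F)
        (Asum (fun β : Finset κ => offKey (r := r) (c := c) (b ×ˢ β)) τ F) := by
  obtain ⟨i, i', hi, rfl⟩ := Finset.card_eq_two.1 hb
  obtain ⟨x, y, z, hxy, hxz, hyz, hτe⟩ := Finset.card_eq_three.1 hτ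
  set t : Fin 3 → κ := ![x, y, z] with htdef
  have ht : Function.Injective t := by
    intro u v huv
    fin_cases u <;> fin_cases v <;> simp_all
  have himg : univ.image t = τ := by
    rw [hτe]
    ext w
    simp only [Finset.mem_image, Finset.mem_univ, true_and,
      Finset.mem_insert, Finset.mem_singleton, htdef]
    simp [Fin.exists_fin_succ, eq_comm]
  refine triple_of_eigen _ τ hτ ?_ F
  intro lam f hlam heq β hβ
  obtain ⟨hP, hinj⟩ := powersetCard_two_image t ht
  rw [← himg, hP] at heq hβ
  rw [Finset.sum_image (fun u _ v _ huv => hinj huv)] at heq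
  obtain ⟨a, -, rfl⟩ := Finset.mem_image.1 hβ
  exact hex_tab_eigen_named hi t ht lam f hlam heq a

end Vale.Agent.P328.HB
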