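import Vale.Agent.P328.HB.Defs
import Vale.Agent.P335.AvgBasic
import Vale.Agent.P335.AvgRect

/-!
# P328: block averaging operators on contingency tables
-/

namespace Vale.Agent.P328.HB

open Finset Vale.Agent.P335

set_option linter.unusedSectionVars false

variable {ι κ : Type*} [Fintype ι] [Fintype κ] [DecidableEq ι] [DecidableEq κ]
variable {r : ι → ℕ} {c : κ → ℕ}

/-- The table outside the cell set `B` (the cells of `B` are erased). -/
def offKey (B : Finset (ι × κ)) (X : Tab r c) : ι × κ → ℕ :=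
  fun p => if p ∈ B then 0 else X.1 p.1 p.2

/-- Conditional expectation given the table outside `B`. -/
noncomputable def EB (B : Finset (ι × κ)) (F : Tab r c → ℝ) : Tab r c → ℝ := avg (offKey B) F

/-- `1 - EB B`. -/
noncomputable def QB (B : Finset (ι × κ)) (F : Tab r c → ℝ) : Tab r c → ℝ := F - EB B F

theorem offKey_eq_iff (B : Finset (ι × κ)) (X Y : Tab r c) :
    offKey B X = offKey B Y ↔ ∀ i j, (i, j) ∉ B → X.1 i j = Y.1 i j := by
  constructor
  · intro h i j hij
    have := congrFun h (i, j)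
    simpa [offKey, hij] using this
  · intro h
    funext p
    obtain ⟨i, j⟩ := p
    by_cases hp : (i, j) ∈ B
    · simp [offKey, hp]
    · simp [offKey, hp, h i j hp]

theorem offKey_mono {B B' : Finset (ι × κ)} (h : B ⊆ B') {X Y : Tab r c}
    (hk : offKey B X = offKey B Y) : offKey B' X = offKey B' Y := by
  rw [offKey_eq_iff] at hk ⊢
  intro i j hij
  exact hk i j (fun h' => hij (h h'))

theorem EB_absorb_left {B B' : Finset (ι × κ)} (h : B ⊆ B') (F : Tab r c → ℝ) :
    EB B' (EB B F) = EB B' F := by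
  exact avg_absorb_left (offKey B) (offKey B') (fun _ _ hk => offKey_mono h hk) F

theorem EB_absorb_right {B B' : Finset (ι × κ)} (h : B ⊆ B') (F : Tab r c → ℝ) :
    EB B (EB B' F) = EB B' F := by
  exact avg_absorb_right (offKey B) (offKey B') (fun _ _ hk => offKey_mono h hk) F

/-- rectangle property for disjoint cell sets -/
theorem glue_rect {B B' : Finset (ι × κ)} (h : Disjoint B B') (X X₂ X₃ : Tab r c)
    (h2 : offKey B X₂ = offKey B X) (h3 : offKey B' X₃ = offKey B' X) :
    ∃! W : Tab r c, offKey B' W = offKey B' X₂ ∧ offKey B W = offKey B X₃ := by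
  rw [offKey_eq_iff] at h2 h3
  have hdis : ∀ i j, (i, j) ∈ B → (i, j) ∉ B' := fun i j hb hb' =>
    (Finset.disjoint_left.1 h) hb hb'
  have hcell : ∀ i j, (if (i, j) ∈ B then X₂.1 i j else X₃.1 i j) + X.1 i j
      = X₂.1 i j + X₃.1 i j := by
    intro i j
    by_cases hb : (i, j) ∈ B
    · rw [if_pos hb, h3 i j (hdis i j hb)]
    · rw [if_neg hb, h2 i j hb, add_comm]
  have hrow : ∀ i, ∑ j, (if (i, j) ∈ B then X₂.1 i j else X₃.1 i j) = r i := by
    intro i
    have h4 : ∑ j, ((if (i, j) ∈ B then X₂.1 i j else X₃.1 i j) + X.1 i j)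
        = ∑ j, (X₂.1 i j + X₃.1 i j) := Finset.sum_congr rfl fun j _ => hcell i j
    rw [Finset.sum_add_distrib, Finset.sum_add_distrib, X.2.1 i, X₂.2.1 i, X₃.2.1 i] at h4
    omega
  have hcol : ∀ j, ∑ i, (if (i, j) ∈ B then X₂.1 i j else X₃.1 i j) = c j := by
    intro j
    have h4 : ∑ i, ((if (i, j) ∈ B then X₂.1 i j else X₃.1 i j) + X.1 i j)
        = ∑ i, (X₂.1 i j + X₃.1 i j) := Finset.sum_congr rfl fun i _ => hcell i j
    rw [Finset.sum_add_distrib, Finset.sum_add_distrib, X.2.2 j, X₂.2.2 j, X₃.2.2 j] at h4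
    omega
  let W : Tab r c := ⟨fun i j => if (i, j) ∈ B then X₂.1 i j else X₃.1 i j, hrow, hcol⟩
  have hW : ∀ i j, W.1 i j = if (i, j) ∈ B then X₂.1 i j else X₃.1 i j := fun _ _ => rfl
  refine ⟨W, ⟨?_, ?_⟩, ?_⟩
  · refine (offKey_eq_iff B' W X₂).2 ?_
    intro i j hb'
    rw [hW]
    by_cases hb : (i, j) ∈ B
    · rw [if_pos hb]
    · rw [if_neg hb, h3 i j hb', h2 i j hb]
  · refine (offKey_eq_iff B W X₃).2 ?_
    intro i j hb
    rw [hW, if_neg hb]
  · rintro W' ⟨hW1, hW2⟩
    rw [offKey_eq_iff] at hW1 hW2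
    apply Subtype.ext
    funext i j
    rw [hW]
    by_cases hb : (i, j) ∈ B
    · rw [if_pos hb]
      exact hW1 i j (hdis i j hb)
    · rw [if_neg hb]
      exact hW2 i j hb

/-- averaging operators of disjoint cell sets commute -/
theorem EB_comm {B B' : Finset (ι × κ)} (h : Disjoint B B') (F : Tab r c → ℝ) :
    EB B (EB B' F) = EB B' (EB B F) := by
  exact avg_comm_of_rect (offKey B) (offKey B') (fun X X₂ X₃ h2 h3 => glue_rect h X X₂ X₃ h2 h3) F

theorem QB_symm (B : Finset (ι × κ)) (F G : Tab r c → ℝ) : ip (QB B F) G = ip F (QB B G) := by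
  have h := avg_symm (offKey B) F G
  unfold QB EB
  unfold ip at h ⊢
  simp only [Pi.sub_apply, sub_mul, mul_sub, Finset.sum_sub_distrib]
  rw [h]

theorem ip_self_QB (B : Finset (ι × κ)) (F : Tab r c → ℝ) :
    ip F (QB B F) = ip (QB B F) (QB B F) := by
  exact ip_self_sub_avg (offKey B) F

/-- `‖E F‖² = ‖F‖² - ‖Q F‖²` -/
theorem ip_EB_EB (B : Finset (ι × κ)) (F : Tab r c → ℝ) :
    ip (EB B F) (EB B F) = ip F F - ip (QB B F) (QB B F) := by
  have h1 : ip (EB B F) (EB B F) = ip F (EB B F) := by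
    unfold EB
    rw [avg_symm, avg_idem]
  have h2 : ip F (QB B F) = ip F F - ip F (EB B F) := by
    unfold QB ip
    simp only [Pi.sub_apply, mul_sub, Finset.sum_sub_distrib]
  rw [← ip_self_QB, h2, h1]
  ring

/-- for disjoint cell sets the cross term is nonnegative -/
theorem ip_QB_QB_nonneg {B B' : Finset (ι × κ)} (h : Disjoint B B') (F : Tab r c → ℝ) :
    0 ≤ ip (QB B F) (QB B' F) := by
  have hsub : ∀ (C : Finset (ι × κ)) (G H : Tab r c → ℝ), EB C (G - H) = EB C G - EB C H :=
    fun C G H => (avgL (offKey C)).map_sub G H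
  have hidem : ∀ (C : Finset (ι × κ)) (G : Tab r c → ℝ), QB C (QB C G) = QB C G := by
    intro C G
    have h1 : EB C (EB C G) = EB C G := avg_idem (offKey C) G
    unfold QB
    rw [hsub, h1]
    abel
  have hcomm : QB B (QB B' F) = QB B' (QB B F) := by
    unfold QB
    rw [hsub, hsub, EB_comm h]
    abel
  have hkey : ip (QB B F) (QB B' F) = ip (QB B (QB B' F)) (QB B (QB B' F)) := by
    rw [QB_symm B (QB B' F) (QB B (QB B' F)), hidem, QB_symm B' F (QB B (QB B' F)), hcomm,
      hidem, ← hcomm, QB_symm B F (QB B' F)]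
  rw [hkey]
  exact Finset.sum_nonneg fun _ _ => mul_self_nonneg _

/-- the class of the key of a block is the fibre of `Defs` -/
theorem cls_offKey_eq_fibre (b : Finset ι) (β : Finset κ) (X : Tab r c) :
    cls (offKey (b ×ˢ β)) X = fibre b β X := by
  ext Y
  rw [mem_cls, offKey_eq_iff]
  classical
  unfold fibre
  rw [Finset.mem_filter]
  simp only [AgreeOff, Finset.mem_univ, true_and, Finset.mem_product]

end Vale.Agent.P328.HB
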