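import Vale.Agent.P328.HB.ThreeRow
import Vale.Agent.P328.HB.HexTab
import Vale.Agent.P328.HB.Conn

/-!
# P328: the Poincare inequality for the 2 x 2 blocks
-/

namespace Vale.Agent.P328.HB

open Finset Vale.Agent.P335

set_option linter.unusedSectionVars false

variable {ι κ : Type*} [Fintype ι] [Fintype κ] [DecidableEq ι] [DecidableEq κ]
variable {r : ι → ℕ} {c : κ → ℕ}

/-- row pairs: gap at least one -/
theorem rows_gap (F : Tab r c → ℝ) (hF : ∑ X, F X = 0) :
    ip F F ≤ ∑ b ∈ (univ : Finset ι).powersetCard 2,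
      ip (QB (b ×ˢ (univ : Finset κ)) F) (QB (b ×ˢ (univ : Finset κ)) F) := by
  have hsq := caputo_abs
    (fun b : Finset ι => offKey (r := r) (c := c) (b ×ˢ (univ : Finset κ)))
    (fun b b' _ _ hd G =>
      ip_QB_QB_nonneg (r := r) (c := c)
        (B := b ×ˢ (univ : Finset κ)) (B' := b' ×ˢ (univ : Finset κ))
        (Finset.disjoint_product.2 (Or.inl hd)) G)
    (fun T hT G => three_row T hT G)
  refine caputo_gap
    (fun b : Finset ι => offKey (r := r) (c := c) (b ×ˢ (univ : Finset κ))) hsq F ?_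
  intro f hf
  have hconst : ∀ X Y : Tab r c, f X = f Y := by
    intro X Y
    refine const_of_block_inv (univ : Finset ι) f ?_ X Y ?_
    · intro b _ hb β _ X₁ X₂ hk
      refine const_on_cls_of_avg_eq _ f
        (hf b (Finset.mem_powersetCard.2 ⟨Finset.subset_univ _, hb⟩)) ?_
      exact offKey_mono (Finset.product_subset_product (Finset.Subset.refl b)
        (Finset.subset_univ β)) hk
    · rw [offKey_eq_iff]
      intro i j hij
      exact absurd (Finset.mem_product.2 ⟨Finset.mem_univ _, Finset.mem_univ _⟩) hij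
  by_cases hne : Nonempty (Tab r c)
  · obtain ⟨X₀⟩ := hne
    unfold ip
    rw [Finset.sum_congr rfl (fun X _ => by rw [hconst X X₀]), ← Finset.sum_mul, hF, zero_mul]
  · unfold ip
    have : IsEmpty (Tab r c) := not_nonempty_iff.1 hne
    simp

/-- column pairs inside a row pair: gap at least one -/
theorem cols_gap (b : Finset ι) (hb : b.card = 2) (F : Tab r c → ℝ) :
    ip (QB (b ×ˢ (univ : Finset κ)) F) (QB (b ×ˢ (univ : Finset κ)) F) ≤
      ∑ β ∈ (univ : Finset κ).powersetCard 2, ip (QB (b ×ˢ β) F) (QB (b ×ˢ β) F) := by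
  have hsq := caputo_abs
    (fun β : Finset κ => offKey (r := r) (c := c) (b ×ˢ β))
    (fun β β' _ _ hd G =>
      ip_QB_QB_nonneg (r := r) (c := c) (B := b ×ˢ β) (B' := b ×ˢ β')
        (Finset.disjoint_product.2 (Or.inr hd)) G)
    (fun τ hτ G => hex_tab b hb τ hτ G)
  have hgap := caputo_gap
    (fun β : Finset κ => offKey (r := r) (c := c) (b ×ˢ β)) hsq
    (QB (b ×ˢ (univ : Finset κ)) F) ?_
  · refine hgap.trans (le_of_eq ?_)
    refine Finset.sum_congr rfl fun β _ => ?_
    have hQ : Qk (offKey (r := r) (c := c) (b ×ˢ β)) (QB (b ×ˢ (univ : Finset κ)) F)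
        = QB (b ×ˢ β) F := by
      have habs : EB (b ×ˢ β) (EB (b ×ˢ (univ : Finset κ)) F) = EB (b ×ˢ (univ : Finset κ)) F :=
        EB_absorb_right (Finset.product_subset_product (Finset.Subset.refl b)
          (Finset.subset_univ β)) F
      have hlin : avg (offKey (r := r) (c := c) (b ×ˢ β)) (F - EB (b ×ˢ (univ : Finset κ)) F)
          = EB (b ×ˢ β) F - EB (b ×ˢ β) (EB (b ×ˢ (univ : Finset κ)) F) := by
        have := (avgL (offKey (r := r) (c := c) (b ×ˢ β))).map_sub F
          (EB (b ×ˢ (univ : Finset κ)) F)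
        simpa [EB] using this
      unfold Qk QB
      rw [hlin, habs]
      abel
    rw [hQ]
  · intro f hf
    have hfix : EB (b ×ˢ (univ : Finset κ)) f = f := by
      funext X
      refine avg_eq_self_at _ f X fun Y hY => ?_
      refine const_of_block_inv b f ?_ Y X ((mem_cls _ _ _).1 hY)
      intro b' hb' hb'c β hβ X₁ X₂ hk
      have hbb : b' = b := Finset.eq_of_subset_of_card_le hb' (by rw [hb, hb'c])
      subst hbb
      exact const_on_cls_of_avg_eq _ f
        (hf β (Finset.mem_powersetCard.2 ⟨Finset.subset_univ _, hβ⟩)) hk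
    rw [QB_symm]
    unfold QB
    rw [hfix, sub_self]
    unfold ip
    simp

/-- Poincare inequality for the 2 x 2 blocks -/
theorem block_poincare (F : Tab r c → ℝ) (hF : ∑ X, F X = 0) :
    ip F F ≤ ∑ b ∈ (univ : Finset ι).powersetCard 2, ∑ β ∈ (univ : Finset κ).powersetCard 2,
      ip (QB (b ×ˢ β) F) (QB (b ×ˢ β) F) := by
  refine (rows_gap F hF).trans ?_
  exact Finset.sum_le_sum (fun b hb => cols_gap b (Finset.mem_powersetCard.mp hb).2 F)

end Vale.Agent.P328.HB
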