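import Vale.Agent.P328.HB.Keys
import Vale.Agent.P328.HB.AbsCaputo

/-!
# P328: THE THREE-ROW LEMMA (the one missing piece)
-/

namespace Vale.Agent.P328.HB

open Finset Vale.Agent.P335

set_option linter.unusedSectionVars false

variable {ι κ : Type*} [Fintype ι] [Fintype κ] [DecidableEq ι] [DecidableEq κ]
variable {r : ι → ℕ} {c : κ → ℕ}

/-- the three-row lemma: for three rows `T`, `A_T ≤ A_T²`, where `A_T` is the sum over the pairs
`b ⊆ T` of `1 - E[ . | rows outside b]`. -/
theorem three_row (T : Finset ι) (hT : T.card = 3) (F : Tab r c → ℝ) :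
    ip F (Asum (fun b : Finset ι => offKey (r := r) (c := c) (b ×ˢ (univ : Finset κ))) T F) ≤
      ip (Asum (fun b : Finset ι => offKey (r := r) (c := c) (b ×ˢ (univ : Finset κ))) T F)
        (Asum (fun b : Finset ι => offKey (r := r) (c := c) (b ×ˢ (univ : Finset κ))) T F) := by
  sorry

end Vale.Agent.P328.HB
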